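import Vale.Agent.Lib.P037.Symm

/-!
# P037: the constant patterns `[[1,1],[1,1]]` and `[[0,0],[0,0]]`
-/

namespace Vale.Agent.Lib.P037
open Finset

variable {n : ℕ}

/-- the all-ones pattern -/
def patOnes : Matrix (Fin 2) (Fin 2) Bool := !![true, true; true, true]

/-- the all-zeros pattern -/
def patZeros : Matrix (Fin 2) (Fin 2) Bool := !![false, false; false, false]

/-- index type of quadruples -/
abbrev Quad (n : ℕ) := (Fin n × Fin n) × (Fin n × Fin n)

/-- product of the four entries -/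
def term4 (a : Fin n → Fin n → ℝ) (p : Quad n) : ℝ :=
  a p.1.1 p.2.1 * a p.1.1 p.2.2 * (a p.1.2 p.2.1 * a p.1.2 p.2.2)

theorem cs_fin (f : Fin n → ℝ) : (∑ x, f x) ^ 2 ≤ n * ∑ x, f x ^ 2 := by
  have := sq_sum_le_card_mul_sum_sq (s := (univ : Finset (Fin n))) (f := f)
  simpa using this

theorem sum_term4 (a : Fin n → Fin n → ℝ) :
    ∑ p : Quad n, term4 a p = ∑ c, ∑ d, (∑ x, a x c * a x d) ^ 2 := by
  unfold term4
  rw [Fintype.sum_prod_type, Finset.sum_comm]
  rw [Fintype.sum_prod_type]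
  refine Finset.sum_congr rfl fun c _ => Finset.sum_congr rfl fun d _ => ?_
  rw [Fintype.sum_prod_type, sq, Finset.sum_mul_sum]

theorem fourth_power_le (a : Fin n → Fin n → ℝ) :
    (∑ x, ∑ c, a x c) ^ 4 ≤ (n : ℝ) ^ 4 * ∑ p : Quad n, term4 a p := by
  rw [sum_term4]
  set S : ℝ := ∑ c, ∑ d, ∑ x, a x c * a x d with hS
  have h1 : (∑ x, ∑ c, a x c) ^ 2 ≤ n * S := by
    have e : ∑ x, (∑ c, a x c) ^ 2 = S := by
      rw [hS]
      have : ∀ x, (∑ c, a x c) ^ 2 = ∑ c, ∑ d, a x c * a x d := by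
        intro x
        rw [sq, Finset.sum_mul_sum]
      simp_rw [this]
      rw [Finset.sum_comm]
      refine Finset.sum_congr rfl fun c _ => ?_
      rw [Finset.sum_comm]
    rw [← e]
    exact cs_fin _
  have h2 : S ^ 2 ≤ (n : ℝ) ^ 2 * ∑ c, ∑ d, (∑ x, a x c * a x d) ^ 2 := by
    have e1 : S ^ 2 ≤ n * ∑ c, (∑ d, ∑ x, a x c * a x d) ^ 2 := cs_fin _
    have e2 : ∑ c, (∑ d, ∑ x, a x c * a x d) ^ 2
        ≤ ∑ c, (n : ℝ) * ∑ d, (∑ x, a x c * a x d) ^ 2 :=
      Finset.sum_le_sum fun c _ => cs_fin _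
    rw [← Finset.mul_sum] at e2
    have hn : (0 : ℝ) ≤ n := Nat.cast_nonneg n
    calc S ^ 2 ≤ n * ∑ c, (∑ d, ∑ x, a x c * a x d) ^ 2 := e1
      _ ≤ n * (n * ∑ c, ∑ d, (∑ x, a x c * a x d) ^ 2) := mul_le_mul_of_nonneg_left e2 hn
      _ = (n : ℝ) ^ 2 * ∑ c, ∑ d, (∑ x, a x c * a x d) ^ 2 := by ring
  have h3 : 0 ≤ (∑ x, ∑ c, a x c) ^ 2 := sq_nonneg _
  have hn2 : (0 : ℝ) ≤ (n : ℝ) ^ 2 := sq_nonneg _
  calc (∑ x, ∑ c, a x c) ^ 4 = ((∑ x, ∑ c, a x c) ^ 2) ^ 2 := by ring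
    _ ≤ (n * S) ^ 2 := pow_le_pow_left₀ h3 h1 2
    _ = (n : ℝ) ^ 2 * S ^ 2 := by ring
    _ ≤ (n : ℝ) ^ 2 * ((n : ℝ) ^ 2 * ∑ c, ∑ d, (∑ x, a x c * a x d) ^ 2) :=
        mul_le_mul_of_nonneg_left h2 hn2
    _ = (n : ℝ) ^ 4 * ∑ c, ∑ d, (∑ x, a x c * a x d) ^ 2 := by ring

/-- the ordered part of the sum -/
noncomputable def ordSum (a : Fin n → Fin n → ℝ) : ℝ :=
  ∑ p : Quad n, if p.1.1 < p.1.2 ∧ p.2.1 < p.2.2 then term4 a p else 0

theorem pair_diag : ∑ x : Fin n × Fin n, (if x.1 = x.2 then (1 : ℝ) else 0) = n := by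
  rw [Fintype.sum_prod_type]
  simp

theorem sum_diag1 : ∑ p : Quad n, (if p.1.1 = p.1.2 then (1 : ℝ) else 0) = (n : ℝ) ^ 3 := by
  rw [Fintype.sum_prod_type, Finset.sum_comm]
  simp only [pair_diag, Finset.sum_const, Finset.card_univ, Fintype.card_prod, Fintype.card_fin,
    nsmul_eq_mul]
  push_cast
  ring

theorem sum_diag2 : ∑ p : Quad n, (if p.2.1 = p.2.2 then (1 : ℝ) else 0) = (n : ℝ) ^ 3 := by
  rw [Fintype.sum_prod_type]
  simp only [pair_diag, Finset.sum_const, Finset.card_univ, Fintype.card_prod, Fintype.card_fin,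
    nsmul_eq_mul]
  push_cast
  ring

theorem sum_term4_le (a : Fin n → Fin n → ℝ) (h0 : ∀ x c, 0 ≤ a x c) (h1 : ∀ x c, a x c ≤ 1) :
    ∑ p : Quad n, term4 a p ≤ 4 * ordSum a + 2 * (n : ℝ) ^ 3 := by
  have ht0 : ∀ p, 0 ≤ term4 a p := by
    intro p
    unfold term4
    have := h0 p.1.1 p.2.1
    have := h0 p.1.1 p.2.2
    have := h0 p.1.2 p.2.1
    have := h0 p.1.2 p.2.2
    positivity
  have ht1 : ∀ p, term4 a p ≤ 1 := by
    intro p
    unfold term4
    have e1 : a p.1.1 p.2.1 * a p.1.1 p.2.2 ≤ 1 :=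
      mul_le_one₀ (h1 _ _) (h0 _ _) (h1 _ _)
    have e2 : a p.1.2 p.2.1 * a p.1.2 p.2.2 ≤ 1 :=
      mul_le_one₀ (h1 _ _) (h0 _ _) (h1 _ _)
    exact mul_le_one₀ e1 (mul_nonneg (h0 _ _) (h0 _ _)) e2
  let G : Quad n → ℝ := fun p => if p.1.1 < p.1.2 ∧ p.2.1 < p.2.2 then term4 a p else 0
  let e1 : Quad n ≃ Quad n := (Equiv.prodComm _ _).prodCongr (Equiv.refl _)
  let e2 : Quad n ≃ Quad n := (Equiv.refl _).prodCongr (Equiv.prodComm _ _)
  let e3 : Quad n ≃ Quad n := (Equiv.prodComm _ _).prodCongr (Equiv.prodComm _ _)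
  have hpt : ∀ p : Quad n, term4 a p ≤ G p + G (e1 p) + G (e2 p) + G (e3 p)
      + (if p.1.1 = p.1.2 then (1 : ℝ) else 0) + (if p.2.1 = p.2.2 then (1 : ℝ) else 0) := by
    intro p
    have s1 : term4 a (e1 p) = term4 a p := by
      simp only [term4, e1, Equiv.prodCongr_apply, Prod.map, Equiv.prodComm_apply, Prod.swap,
        Equiv.refl_apply]
      ring
    have s2 : term4 a (e2 p) = term4 a p := by
      simp only [term4, e2, Equiv.prodCongr_apply, Prod.map, Equiv.prodComm_apply, Prod.swap,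
        Equiv.refl_apply]
      ring
    have s3 : term4 a (e3 p) = term4 a p := by
      simp only [term4, e3, Equiv.prodCongr_apply, Prod.map, Equiv.prodComm_apply, Prod.swap]
      ring
    have g0 : ∀ q, 0 ≤ G q := by
      intro q
      simp only [G]
      split_ifs
      · exact ht0 q
      · exact le_rfl
    have i1 : (0 : ℝ) ≤ (if p.1.1 = p.1.2 then (1 : ℝ) else 0) := by split_ifs <;> norm_num
    have i2 : (0 : ℝ) ≤ (if p.2.1 = p.2.2 then (1 : ℝ) else 0) := by split_ifs <;> norm_num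
    have := g0 p
    have := g0 (e1 p)
    have := g0 (e2 p)
    have := g0 (e3 p)
    rcases lt_trichotomy p.1.1 p.1.2 with hx | hx | hx
    · rcases lt_trichotomy p.2.1 p.2.2 with hc | hc | hc
      · have : G p = term4 a p := by simp only [G]; rw [if_pos ⟨hx, hc⟩]
        linarith
      · rw [if_pos hc]
        have := ht1 p
        linarith
      · have : G (e2 p) = term4 a p := by
          rw [← s2]
          simp only [G]
          rw [if_pos]
          exact ⟨hx, hc⟩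
        linarith
    · rw [if_pos hx]
      have := ht1 p
      linarith
    · rcases lt_trichotomy p.2.1 p.2.2 with hc | hc | hc
      · have : G (e1 p) = term4 a p := by
          rw [← s1]
          simp only [G]
          rw [if_pos]
          exact ⟨hx, hc⟩
        linarith
      · rw [if_pos hc]
        have := ht1 p
        linarith
      · have : G (e3 p) = term4 a p := by
          rw [← s3]
          simp only [G]
          rw [if_pos]
          exact ⟨hx, hc⟩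
        linarith
  have hsum := Finset.sum_le_sum (s := (univ : Finset (Quad n))) fun p _ => hpt p
  simp only [Finset.sum_add_distrib] at hsum
  rw [Equiv.sum_comp e1 G, Equiv.sum_comp e2 G, Equiv.sum_comp e3 G, sum_diag1, sum_diag2] at hsum
  have : ordSum a = ∑ p, G p := rfl
  rw [this]
  linarith

/-! ### translation to the official notions -/

theorem strictMono_fin2 (r : Fin 2 → Fin n) : StrictMono r ↔ r 0 < r 1 := by
  constructor
  · intro h
    exact h (by decide)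
  · intro h i j hij
    fin_cases i <;> fin_cases j
    · exact absurd hij (by decide)
    · exact h
    · exact absurd hij (by decide)
    · exact absurd hij (by decide)

theorem isCopy_patOnes_iff (A : Matrix (Fin n) (Fin n) Bool) (r c : Fin 2 → Fin n) :
    IsCopy patOnes A r c ↔ (r 0 < r 1 ∧ c 0 < c 1 ∧ A (r 0) (c 0) = true ∧ A (r 0) (c 1) = true ∧
      A (r 1) (c 0) = true ∧ A (r 1) (c 1) = true) := by
  unfold IsCopy
  rw [strictMono_fin2, strictMono_fin2]
  simp only [Fin.forall_fin_two, patOnes]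
  simp
  tauto

/-- number of ordered all-ones 2 × 2 submatrices -/
def cntO (A : Matrix (Fin n) (Fin n) Bool) : ℕ :=
  #{p : Quad n | p.1.1 < p.1.2 ∧ p.2.1 < p.2.2 ∧ A p.1.1 p.2.1 = true ∧ A p.1.1 p.2.2 = true ∧
    A p.1.2 p.2.1 = true ∧ A p.1.2 p.2.2 = true}

theorem numCopies_patOnes (A : Matrix (Fin n) (Fin n) Bool) : numCopies patOnes A = cntO A := by
  classical
  unfold numCopies cntO
  rw [Nat.card_eq_fintype_card, Fintype.card_subtype]
  apply Finset.card_equiv ((finTwoArrowEquiv (Fin n)).prodCongr (finTwoArrowEquiv (Fin n)))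
  intro p
  simp only [Finset.mem_filter, Finset.mem_univ, true_and, isCopy_patOnes_iff]
  rfl

/-- real-valued indicator of the ones -/
noncomputable def ind (A : Matrix (Fin n) (Fin n) Bool) : Fin n → Fin n → ℝ :=
  fun x c => if A x c = true then 1 else 0

theorem ind_nonneg (A : Matrix (Fin n) (Fin n) Bool) (x c : Fin n) : 0 ≤ ind A x c := by
  unfold ind
  split_ifs <;> norm_num

theorem ind_le_one (A : Matrix (Fin n) (Fin n) Bool) (x c : Fin n) : ind A x c ≤ 1 := by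
  unfold ind
  split_ifs <;> norm_num

theorem ordSum_ind (A : Matrix (Fin n) (Fin n) Bool) : ordSum (ind A) = (cntO A : ℝ) := by
  unfold ordSum cntO
  rw [← Finset.sum_boole]
  refine Finset.sum_congr rfl fun p _ => ?_
  unfold term4 ind
  by_cases h1 : A p.1.1 p.2.1 = true <;> by_cases h2 : A p.1.1 p.2.2 = true <;>
    by_cases h3 : A p.1.2 p.2.1 = true <;> by_cases h4 : A p.1.2 p.2.2 = true <;>
    by_cases h5 : p.1.1 < p.1.2 <;> by_cases h6 : p.2.1 < p.2.2 <;>
    simp [h1, h2, h3, h4, h5, h6]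

/-- the zero matrix -/
def zeroMat (n : ℕ) : Matrix (Fin n) (Fin n) Bool := fun _ _ => false

theorem isFree_zeroMat : IsFree patOnes (zeroMat n) := by
  intro r c h
  have := h.2.2 0 0
  simp [zeroMat, patOnes] at this

theorem numDiff_zeroMat (A : Matrix (Fin n) (Fin n) Bool) :
    (numDiff A (zeroMat n) : ℝ) = ∑ x, ∑ c, ind A x c := by
  unfold numDiff
  rw [← Finset.sum_boole, Fintype.sum_prod_type]
  refine Finset.sum_congr rfl fun x _ => Finset.sum_congr rfl fun c _ => ?_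
  unfold ind zeroMat
  by_cases h : A x c = true <;> simp [h]

theorem distFree_le (H : Matrix (Fin 2) (Fin 2) Bool) (A B : Matrix (Fin n) (Fin n) Bool)
    (hB : IsFree H B) : distFree H A ≤ (numDiff A B : ℝ) / (n : ℝ) ^ 2 := by
  unfold distFree
  have hle : sInf {d : ℕ | ∃ B : Matrix (Fin n) (Fin n) Bool, IsFree H B ∧ numDiff A B = d}
      ≤ numDiff A B := Nat.sInf_le ⟨B, hB, rfl⟩
  have : ((sInf {d : ℕ | ∃ B : Matrix (Fin n) (Fin n) Bool, IsFree H B ∧ numDiff A B = d} : ℕ) : ℝ)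
      ≤ (numDiff A B : ℝ) := by exact_mod_cast hle
  exact div_le_div_of_nonneg_right this (by positivity)

theorem numDiff_self (A : Matrix (Fin n) (Fin n) Bool) : numDiff A A = 0 := by
  unfold numDiff
  simp

theorem one_le_numCopies (H : Matrix (Fin 2) (Fin 2) Bool) (A : Matrix (Fin n) (Fin n) Bool)
    (h : 0 < distFree H A) : 1 ≤ numCopies H A := by
  by_contra hcon
  have h0 : numCopies H A = 0 := by omega
  have hfree : IsFree H A := by
    intro r c hc
    unfold numCopies at h0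
    have : Nonempty {p : (Fin 2 → Fin n) × (Fin 2 → Fin n) // IsCopy H A p.1 p.2} :=
      ⟨⟨(r, c), hc⟩⟩
    have hpos := Nat.card_pos (α := {p : (Fin 2 → Fin n) × (Fin 2 → Fin n) // IsCopy H A p.1 p.2})
    omega
  have := distFree_le H A A hfree
  rw [numDiff_self] at this
  simp at this
  linarith

theorem polyRemoval_patOnes : PolyRemoval patOnes := by
  refine ⟨1 / 256, 16, by norm_num, by norm_num, ?_⟩
  intro n hn ε hε hε1 A hdist
  have hpow : ε ^ (16 : ℝ) = ε ^ (16 : ℕ) := by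
    rw [← Real.rpow_natCast]
    norm_num
  rw [hpow]
  have h4 : (n : ℝ) ^ (2 * 2) = (n : ℝ) ^ 4 := by norm_num
  rw [h4]
  have hnpos : (0 : ℝ) < n := by exact_mod_cast hn
  have hN1 : (1 : ℝ) ≤ numCopies patOnes A := by
    exact_mod_cast one_le_numCopies patOnes A (lt_of_lt_of_le hε hdist)
  by_cases hcase : 4 ≤ ε ^ 4 * n
  · -- main case
    set E : ℝ := ∑ x, ∑ c, ind A x c with hE
    have hE1 : ε * (n : ℝ) ^ 2 ≤ E := by
      have h1 := distFree_le patOnes A (zeroMat n) isFree_zeroMat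
      rw [numDiff_zeroMat] at h1
      have h2 : ε ≤ E / (n : ℝ) ^ 2 := hdist.trans h1
      rwa [le_div_iff₀ (by positivity)] at h2
    have hQ := fourth_power_le (ind A)
    have hQ2 := sum_term4_le (ind A) (ind_nonneg A) (ind_le_one A)
    rw [ordSum_ind, ← numCopies_patOnes] at hQ2
    set N : ℝ := (numCopies patOnes A : ℝ) with hN
    have h5 : (ε * (n : ℝ) ^ 2) ^ 4 ≤ E ^ 4 := pow_le_pow_left₀ (by positivity) hE1 4
    have h6 : (ε * (n : ℝ) ^ 2) ^ 4 ≤ (n : ℝ) ^ 4 * (4 * N + 2 * (n : ℝ) ^ 3) :=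
      h5.trans (hQ.trans (mul_le_mul_of_nonneg_left hQ2 (by positivity)))
    have h7 : ε ^ 4 * (n : ℝ) ^ 4 ≤ 4 * N + 2 * (n : ℝ) ^ 3 := by
      have e : (ε * (n : ℝ) ^ 2) ^ 4 = (n : ℝ) ^ 4 * (ε ^ 4 * (n : ℝ) ^ 4) := by ring
      rw [e] at h6
      exact le_of_mul_le_mul_left h6 (by positivity)
    have h8 : 4 * (n : ℝ) ^ 3 ≤ ε ^ 4 * (n : ℝ) ^ 4 := by
      have : ε ^ 4 * (n : ℝ) ^ 4 = (ε ^ 4 * n) * (n : ℝ) ^ 3 := by ring
      rw [this]
      exact mul_le_mul_of_nonneg_right hcase (by positivity)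
    have h9 : ε ^ 16 ≤ ε ^ 4 := pow_le_pow_of_le_one hε.le hε1.le (by norm_num)
    have h10 : ε ^ 16 * (n : ℝ) ^ 4 ≤ ε ^ 4 * (n : ℝ) ^ 4 :=
      mul_le_mul_of_nonneg_right h9 (by positivity)
    have h11 : 0 ≤ ε ^ 16 * (n : ℝ) ^ 4 := by positivity
    nlinarith
  · -- small n
    rw [not_le] at hcase
    have h1 : (ε ^ 4 * n) ^ 4 ≤ 4 ^ 4 := pow_le_pow_left₀ (by positivity) hcase.le 4
    have h2 : (ε ^ 4 * n) ^ 4 = ε ^ 16 * (n : ℝ) ^ 4 := by ring
    rw [h2] at h1
    have : 1 / 256 * ε ^ 16 * (n : ℝ) ^ 4 ≤ 1 := by nlinarith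
    linarith

theorem patZeros_eq : patZeros = patOnes.map not := by
  ext i j
  fin_cases i <;> fin_cases j <;> rfl

theorem polyRemoval_patZeros : PolyRemoval patZeros := by
  rw [patZeros_eq]
  exact polyRemoval_map_not _ polyRemoval_patOnes

end Vale.Agent.Lib.P037
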