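import Mathlib

/-!
# P037: polynomial removal for the ordered 2×2 pattern `I = [[1,0],[0,1]]` — basic definitions
Matrices are functions `Fin n → Fin m → Bool` (rows, columns).
-/

namespace Vale.Agent.Lib.P037

open Finset

variable {n m : ℕ}

/-- Number of ordered copies of `I = [[1,0],[0,1]]`: rows `x<y`, columns `c<d`,
`A x c = 1, A x d = 0, A y c = 0, A y d = 1`. -/
def cntI (A : Fin n → Fin m → Bool) : ℕ :=
  #{p : (Fin n × Fin n) × (Fin m × Fin m) | p.1.1 < p.1.2 ∧ p.2.1 < p.2.2 ∧
      A p.1.1 p.2.1 = true ∧ A p.1.1 p.2.2 = false ∧ A p.1.2 p.2.1 = false ∧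
      A p.1.2 p.2.2 = true}

/-- `A` has no ordered copy of `I`. -/
def IFree (A : Fin n → Fin m → Bool) : Prop :=
  ∀ x y : Fin n, ∀ c d : Fin m, x < y → c < d →
    ¬ (A x c = true ∧ A x d = false ∧ A y c = false ∧ A y d = true)

/-- Hamming distance (number of differing entries). -/
def hd (A B : Fin n → Fin m → Bool) : ℕ := #{p : Fin n × Fin m | A p.1 p.2 ≠ B p.1 p.2}

/-- `dif A x y = |R_x \ R_y|`. -/
def dif (A : Fin n → Fin m → Bool) (x y : Fin n) : ℕ :=
  #{c : Fin m | A x c = true ∧ A y c = false}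

/-- row sum `|R_x|`. -/
def rs (A : Fin n → Fin m → Bool) (x : Fin n) : ℕ := #{c : Fin m | A x c = true}

/-- number of column pairs `c<d` completing rows `x,y` to the values of `I`
(no order condition on `x,y` here). -/
def cp (A : Fin n → Fin m → Bool) (x y : Fin n) : ℕ :=
  #{p : Fin m × Fin m | p.1 < p.2 ∧ A x p.1 = true ∧ A x p.2 = false ∧ A y p.1 = false ∧
      A y p.2 = true}

/-- Row rounding: row `i` becomes the union of the representative rows lying in the strip of `i`
and having level at most the level of `i`. -/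
def roundRows {q L : ℕ} (A : Fin n → Fin m → Bool) (σ : Fin n → Fin q) (lev : Fin n → Fin L)
    (Rep : Finset (Fin n)) : Fin n → Fin m → Bool :=
  fun i c => decide (∃ x ∈ Rep, σ x = σ i ∧ lev x ≤ lev i ∧ A x c = true)

/-- transpose -/
def tr (A : Fin n → Fin m → Bool) : Fin m → Fin n → Bool := fun c i => A i c

/-- energy: `∑_{x,y in the same strip} |R_x \ R_y| |R_y \ R_x|`. -/
def energy {q : ℕ} (A : Fin n → Fin m → Bool) (σ : Fin n → Fin q) : ℕ :=
  ∑ x, ∑ y, if σ x = σ y then dif A x y * dif A y x else 0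

end Vale.Agent.Lib.P037
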