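import Vale.Agent.Lib.P037.Statement
import Vale.Agent.Lib.P037.Defs

/-!
# P037: polynomial removal for the equal-rows pattern `E = [[1,0],[1,0]]`
Sort every row (zeros first).  If this is expensive, many rows contain many `(1,0)` pairs, and
two applications of Cauchy-Schwarz give many copies.
-/

namespace Vale.Agent.Lib.P037
open Finset
variable {n : ℕ}

/-- `E = [[1,0],[1,0]]` -/
def patE : Matrix (Fin 2) (Fin 2) Bool := !![true, false; true, false]

/-- rows having `(1,0)` on the column pair `p` -/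
def rowsE (A : Fin n → Fin n → Bool) (p : Fin n × Fin n) : Finset (Fin n) :=
  {x | A x p.1 = true ∧ A x p.2 = false}

/-- column pairs `c<d` on which row `x` is `(1,0)` -/
def desE (A : Fin n → Fin n → Bool) (x : Fin n) : Finset (Fin n × Fin n) :=
  {p | p.1 < p.2 ∧ A x p.1 = true ∧ A x p.2 = false}

/-- increasing column pairs -/
def incP (n : ℕ) : Finset (Fin n × Fin n) := {p | p.1 < p.2}

/-- number of ordered copies of `E` -/
def cntE (A : Fin n → Fin n → Bool) : ℕ :=
  #{p : (Fin n × Fin n) × (Fin n × Fin n) | p.1.1 < p.1.2 ∧ p.2.1 < p.2.2 ∧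
      A p.1.1 p.2.1 = true ∧ A p.1.1 p.2.2 = false ∧ A p.1.2 p.2.1 = true ∧
      A p.1.2 p.2.2 = false}

/-- number of zeros of row `x` -/
def zerosE (A : Fin n → Fin n → Bool) (x : Fin n) : ℕ := #{c : Fin n | A x c = false}

/-- the sorted matrix -/
def sortE (A : Fin n → Fin n → Bool) : Fin n → Fin n → Bool :=
  fun x c => decide (zerosE A x ≤ c.val)

/-- misplaced ones -/
def uE (A : Fin n → Fin n → Bool) (x : Fin n) : Finset (Fin n) :=
  {c | c.val < zerosE A x ∧ A x c = true}

/-- misplaced zeros -/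
def zE (A : Fin n → Fin n → Bool) (x : Fin n) : Finset (Fin n) :=
  {c | zerosE A x ≤ c.val ∧ A x c = false}

theorem card_uE_eq (A : Fin n → Fin n → Bool) (x : Fin n) : #(uE A x) = #(zE A x) := by
  classical
  have hZ : zerosE A x ≤ n := by
    unfold zerosE
    calc #{c : Fin n | A x c = false} ≤ #(univ : Finset (Fin n)) := Finset.card_le_card (by simp)
      _ = n := by simp
  have h1 : #{c : Fin n | c.val < zerosE A x} = zerosE A x := by
    rw [Fin.card_filter_val_lt]; omega
  have h2 : #{c : Fin n | c.val < zerosE A x}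
      = #(uE A x) + #{c : Fin n | c.val < zerosE A x ∧ A x c = false} := by
    rw [uE, ← Finset.card_union_of_disjoint]
    · congr 1
      ext c
      simp only [Finset.mem_filter, Finset.mem_univ, true_and, Finset.mem_union]
      cases A x c <;> simp
    · rw [Finset.disjoint_filter]
      intro c _ h1 h2
      rw [h1.2] at h2
      exact absurd h2.2 (by simp)
  have h3 : zerosE A x
      = #(zE A x) + #{c : Fin n | c.val < zerosE A x ∧ A x c = false} := by
    conv_lhs => rw [zerosE]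
    rw [zE, ← Finset.card_union_of_disjoint]
    · congr 1
      ext c
      simp only [Finset.mem_filter, Finset.mem_univ, true_and, Finset.mem_union]
      constructor
      · intro h
        rcases le_or_gt (zerosE A x) c.val with h' | h'
        · exact Or.inl ⟨h', h⟩
        · exact Or.inr ⟨h', h⟩
      · rintro (h | h) <;> exact h.2
    · rw [Finset.disjoint_filter]
      intro c _ h1 h2
      omega
  omega

theorem uE_mul_le (A : Fin n → Fin n → Bool) (x : Fin n) :
    #(uE A x) * #(zE A x) ≤ #(desE A x) := by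
  rw [← Finset.card_product]
  apply Finset.card_le_card
  intro p hp
  simp only [Finset.mem_product, uE, zE, Finset.mem_filter, Finset.mem_univ, true_and] at hp
  simp only [desE, Finset.mem_filter, Finset.mem_univ, true_and]
  refine ⟨?_, hp.1.2, hp.2.2⟩
  rw [Fin.lt_def]
  omega

theorem hd_sortE (A : Fin n → Fin n → Bool) :
    hd A (sortE A) = ∑ x, (#(uE A x) + #(zE A x)) := by
  classical
  unfold hd
  rw [Finset.card_filter, Fintype.sum_prod_type]
  apply Finset.sum_congr rfl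
  intro x _
  rw [← Finset.card_filter, uE, zE, ← Finset.card_union_of_disjoint]
  · congr 1
    ext c
    rw [Finset.mem_filter, Finset.mem_union, Finset.mem_filter, Finset.mem_filter]
    simp only [Finset.mem_univ, true_and, sortE]
    by_cases h : zerosE A x ≤ c.val
    · have h' : ¬ c.val < zerosE A x := by omega
      cases hA : A x c <;> simp [h, h']
    · have h' : c.val < zerosE A x := by omega
      cases hA : A x c <;> simp [h, h']
  · rw [Finset.disjoint_filter]
    intro c _ h1 h2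
    omega

/-- `A` has no ordered copy of `E`. -/
def EFree (A : Fin n → Fin n → Bool) : Prop :=
  ∀ x y c d : Fin n, x < y → c < d →
    ¬ (A x c = true ∧ A x d = false ∧ A y c = true ∧ A y d = false)

theorem EFree_sortE (A : Fin n → Fin n → Bool) : EFree (sortE A) := by
  intro x y c d _ hcd h
  have h1 : zerosE A x ≤ c.val := by simpa [sortE] using h.1
  have h2 : ¬ zerosE A x ≤ d.val := by simpa [sortE] using h.2.1
  rw [Fin.lt_def] at hcd
  omega

/-- double counting -/
theorem sum_desE (A : Fin n → Fin n → Bool) :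
    ∑ x, #(desE A x) = ∑ p ∈ incP n, #(rowsE A p) := by
  classical
  simp only [desE, rowsE, incP, Finset.card_filter, Finset.sum_filter]
  rw [Finset.sum_comm]
  apply Finset.sum_congr rfl
  intro p _
  by_cases hp : p.1 < p.2
  · simp [hp]
  · simp [hp]

theorem cntE_eq (A : Fin n → Fin n → Bool) :
    cntE A = ∑ p ∈ incP n, (#(rowsE A p)).choose 2 := by
  classical
  have h : ∀ p ∈ incP n, (#(rowsE A p)).choose 2
      = #{xy : Fin n × Fin n | xy.1 < xy.2 ∧ A xy.1 p.1 = true ∧ A xy.1 p.2 = false ∧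
          A xy.2 p.1 = true ∧ A xy.2 p.2 = false} := by
    intro p _
    rw [← Finset.card_product_filter_lt]
    congr 1
    ext xy
    simp only [Finset.mem_filter, Finset.mem_product, rowsE, Finset.mem_univ, true_and]
    tauto
  rw [Finset.sum_congr rfl h]
  simp only [cntE, incP, Finset.card_filter, Finset.sum_filter]
  rw [Fintype.sum_prod_type, Finset.sum_comm]
  apply Finset.sum_congr rfl
  intro p _
  by_cases hp : p.1 < p.2
  · simp only [hp, true_and, if_true]
  · simp [hp]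

theorem arith_E (n ε U S Q cnt : ℝ) (hn : 1 ≤ n) (hε : 0 < ε) (hε1 : ε < 1)
    (hU : ε * n ^ 2 / 2 ≤ U) (hS : U ^ 2 ≤ n * S) (hQ : S ^ 2 ≤ n ^ 2 * Q)
    (hc : cnt = (Q - S) / 2) (h1 : 1 ≤ cnt) : (1 / 4096) * ε ^ 8 * n ^ 4 ≤ cnt := by
  have hn0 : 0 < n := by linarith
  rcases le_or_gt 8 (ε ^ 2 * n) with h | h
  · have h2 : (ε * n ^ 2 / 2) ^ 2 ≤ U ^ 2 := pow_le_pow_left₀ (by positivity) hU 2
    have h3 : n * (ε ^ 2 * n ^ 3 / 4) ≤ n * S := by
      calc n * (ε ^ 2 * n ^ 3 / 4) = (ε * n ^ 2 / 2) ^ 2 := by ring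
        _ ≤ U ^ 2 := h2
        _ ≤ n * S := hS
    have h4 : ε ^ 2 * n ^ 3 / 4 ≤ S := le_of_mul_le_mul_left h3 hn0
    have h5 : 2 * n ^ 2 ≤ S := by
      have : 2 * n ^ 2 ≤ ε ^ 2 * n ^ 3 / 4 := by
        have : ε ^ 2 * n ^ 3 / 4 = (ε ^ 2 * n) * n ^ 2 / 4 := by ring
        rw [this]
        have hn2 : 0 ≤ n ^ 2 := by positivity
        nlinarith [mul_le_mul_of_nonneg_right h hn2]
      linarith
    have hS0 : 0 ≤ S := by
      have : 0 ≤ n ^ 2 := by positivity
      linarith
    have h6 : S ^ 2 / 2 ≤ n ^ 2 * (Q - S) := by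
      have : n ^ 2 * S ≤ S ^ 2 / 2 := by nlinarith
      nlinarith
    have h7 : (ε ^ 2 * n ^ 3 / 4) ^ 2 ≤ S ^ 2 := pow_le_pow_left₀ (by positivity) h4 2
    have h8 : n ^ 2 * (ε ^ 4 * n ^ 4 / 32) ≤ n ^ 2 * (Q - S) := by
      calc n ^ 2 * (ε ^ 4 * n ^ 4 / 32) = (ε ^ 2 * n ^ 3 / 4) ^ 2 / 2 := by ring
        _ ≤ S ^ 2 / 2 := by linarith
        _ ≤ n ^ 2 * (Q - S) := h6
    have h9 : ε ^ 4 * n ^ 4 / 32 ≤ Q - S := le_of_mul_le_mul_left h8 (by positivity)
    have h10 : ε ^ 8 ≤ ε ^ 4 := pow_le_pow_of_le_one hε.le hε1.le (by norm_num)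
    have h11 : 0 ≤ n ^ 4 := by positivity
    have h12 : ε ^ 8 * n ^ 4 ≤ ε ^ 4 * n ^ 4 := mul_le_mul_of_nonneg_right h10 h11
    have h13 : 0 ≤ ε ^ 8 * n ^ 4 := by positivity
    rw [hc]
    nlinarith
  · have h2 : (ε ^ 2 * n) ^ 4 ≤ 8 ^ 4 := pow_le_pow_left₀ (by positivity) h.le 4
    have h3 : ε ^ 8 * n ^ 4 = (ε ^ 2 * n) ^ 4 := by ring
    have : (1 / 4096 : ℝ) * ε ^ 8 * n ^ 4 ≤ 1 := by
      rw [mul_assoc, h3]
      norm_num at h2 ⊢
      linarith
    linarith

theorem core_E (hn : 1 ≤ n) (A : Fin n → Fin n → Bool) (ε : ℝ) (hε : 0 < ε) (hε1 : ε < 1)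
    (hfar : ε * (n : ℝ) ^ 2 ≤ hd A (sortE A)) (hpos : 1 ≤ cntE A) :
    (1 / 4096) * ε ^ 8 * (n : ℝ) ^ 4 ≤ cntE A := by
  classical
  have hnR : (1 : ℝ) ≤ n := by exact_mod_cast hn
  apply arith_E (n : ℝ) ε (∑ x, (#(uE A x) : ℝ)) (∑ x, (#(desE A x) : ℝ))
    (∑ p ∈ incP n, (#(rowsE A p) : ℝ) ^ 2) (cntE A : ℝ) hnR hε hε1
  · have h : (hd A (sortE A) : ℝ) = 2 * ∑ x, (#(uE A x) : ℝ) := by
      rw [hd_sortE]
      push_cast
      rw [Finset.mul_sum]
      apply Finset.sum_congr rfl
      intro x _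
      rw [← card_uE_eq]
      ring
    rw [h] at hfar
    linarith
  · calc (∑ x, (#(uE A x) : ℝ)) ^ 2
        ≤ (#(univ : Finset (Fin n)) : ℝ) * ∑ x, (#(uE A x) : ℝ) ^ 2 := sq_sum_le_card_mul_sum_sq
      _ = (n : ℝ) * ∑ x, (#(uE A x) : ℝ) ^ 2 := by simp
      _ ≤ (n : ℝ) * ∑ x, (#(desE A x) : ℝ) := by
          apply mul_le_mul_of_nonneg_left _ (by positivity)
          apply Finset.sum_le_sum
          intro x _
          have h := uE_mul_le A x
          rw [← card_uE_eq] at h
          have h' : ((#(uE A x) * #(uE A x) : ℕ) : ℝ) ≤ (#(desE A x) : ℝ) := by exact_mod_cast h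
          push_cast at h'
          nlinarith
  · have hS : (∑ x, (#(desE A x) : ℝ)) = ∑ p ∈ incP n, (#(rowsE A p) : ℝ) := by
      have := sum_desE A
      exact_mod_cast this
    rw [hS]
    have hcard : (#(incP n) : ℝ) ≤ (n : ℝ) ^ 2 := by
      have : #(incP n) ≤ #(univ : Finset (Fin n × Fin n)) := Finset.card_le_card (by simp)
      have h2 : #(univ : Finset (Fin n × Fin n)) = n ^ 2 := by
        simp [sq]
      rw [h2] at this
      exact_mod_cast this
    calc (∑ p ∈ incP n, (#(rowsE A p) : ℝ)) ^ 2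
        ≤ (#(incP n) : ℝ) * ∑ p ∈ incP n, (#(rowsE A p) : ℝ) ^ 2 := sq_sum_le_card_mul_sum_sq
      _ ≤ (n : ℝ) ^ 2 * ∑ p ∈ incP n, (#(rowsE A p) : ℝ) ^ 2 := by
          apply mul_le_mul_of_nonneg_right hcard
          positivity
  · have hS : (∑ x, (#(desE A x) : ℝ)) = ∑ p ∈ incP n, (#(rowsE A p) : ℝ) := by
      have := sum_desE A
      exact_mod_cast this
    rw [hS, cntE_eq, ← Finset.sum_sub_distrib, Finset.sum_div]
    push_cast
    apply Finset.sum_congr rfl
    intro p _
    rw [Nat.cast_choose_two]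
    ring
  · exact_mod_cast hpos

theorem strictMono_two' (r : Fin 2 → Fin n) : StrictMono r ↔ r 0 < r 1 := by
  constructor
  · intro h
    exact h (by decide)
  · intro h i j hij
    fin_cases i <;> fin_cases j
    · exact absurd hij (by decide)
    · exact h
    · exact absurd hij (by decide)
    · exact absurd hij (by decide)

theorem isCopy_patE_iff (A : Matrix (Fin n) (Fin n) Bool) (r c : Fin 2 → Fin n) :
    IsCopy patE A r c ↔ (r 0 < r 1 ∧ c 0 < c 1 ∧ A (r 0) (c 0) = true ∧ A (r 0) (c 1) = false ∧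
      A (r 1) (c 0) = true ∧ A (r 1) (c 1) = false) := by
  unfold IsCopy
  rw [strictMono_two', strictMono_two']
  simp only [Fin.forall_fin_two, patE]
  simp
  tauto

theorem numCopies_patE (A : Matrix (Fin n) (Fin n) Bool) :
    numCopies patE A = cntE (fun i j => A i j) := by
  classical
  unfold numCopies cntE
  rw [Nat.card_eq_fintype_card, Fintype.card_subtype]
  apply Finset.card_equiv ((finTwoArrowEquiv (Fin n)).prodCongr (finTwoArrowEquiv (Fin n)))
  intro p
  simp only [Finset.mem_filter, Finset.mem_univ, true_and, isCopy_patE_iff]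
  rfl

theorem isFree_patE_iff (A : Matrix (Fin n) (Fin n) Bool) :
    IsFree patE A ↔ EFree (fun i j => A i j) := by
  unfold IsFree EFree
  constructor
  · intro h x y c d hxy hcd hh
    apply h ![x, y] ![c, d]
    rw [isCopy_patE_iff]
    exact ⟨hxy, hcd, hh⟩
  · intro h r c hc
    rw [isCopy_patE_iff] at hc
    exact h (r 0) (r 1) (c 0) (c 1) hc.1 hc.2.1 hc.2.2

theorem cntE_pos_of_not_EFree (A : Fin n → Fin n → Bool) (h : ¬ EFree A) : 1 ≤ cntE A := by
  unfold EFree at h
  push Not at h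
  obtain ⟨x, y, c, d, hxy, hcd, hh⟩ := h
  unfold cntE
  apply Finset.card_pos.mpr
  exact ⟨((x, y), (c, d)), by simp only [Finset.mem_filter, Finset.mem_univ, true_and]; exact ⟨hxy, hcd, hh⟩⟩

theorem explicit_patE (n : ℕ) (hn : 1 ≤ n) (ε : ℝ) (hε : 0 < ε) (hε1 : ε < 1)
    (A : Matrix (Fin n) (Fin n) Bool) (hA : ε ≤ distFree patE A) :
    (1 / 4096) * ε ^ 8 * (n : ℝ) ^ 4 ≤ numCopies patE A := by
  have hnR : (0 : ℝ) < n := by exact_mod_cast hn
  have key : ∀ B : Matrix (Fin n) (Fin n) Bool, IsFree patE B →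
      ε * (n : ℝ) ^ 2 ≤ numDiff A B := by
    intro B hB
    have hmem : numDiff A B ∈
        {d : ℕ | ∃ B : Matrix (Fin n) (Fin n) Bool, IsFree patE B ∧ numDiff A B = d} :=
      ⟨B, hB, rfl⟩
    have hle : sInf {d : ℕ | ∃ B : Matrix (Fin n) (Fin n) Bool, IsFree patE B ∧ numDiff A B = d}
        ≤ numDiff A B := Nat.sInf_le hmem
    unfold distFree at hA
    rw [le_div_iff₀ (by positivity)] at hA
    calc ε * (n : ℝ) ^ 2
        ≤ ((sInf {d : ℕ | ∃ B : Matrix (Fin n) (Fin n) Bool, IsFree patE B ∧ numDiff A B = d} : ℕ) : ℝ) := hA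
      _ ≤ (numDiff A B : ℝ) := by exact_mod_cast hle
  rw [numCopies_patE]
  apply core_E hn (fun i j => A i j) ε hε hε1
  · exact key (Matrix.of (sortE (fun i j => A i j))) ((isFree_patE_iff _).2 (EFree_sortE _))
  · apply cntE_pos_of_not_EFree
    intro hfree
    have h0 := key A ((isFree_patE_iff A).2 hfree)
    have h1 : numDiff A A = 0 := by
      unfold numDiff
      simp
    rw [h1] at h0
    have : 0 < ε * (n : ℝ) ^ 2 := by positivity
    simp at h0
    linarith

theorem polyRemoval_patE : PolyRemoval patE := by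
  refine ⟨1 / 4096, 8, by positivity, by norm_num, ?_⟩
  intro n hn ε hε hε1 A hA
  have e8 : ε ^ (8 : ℝ) = ε ^ (8 : ℕ) := by
    rw [← Real.rpow_natCast]
    norm_num
  rw [e8]
  exact explicit_patE n hn ε hε hε1 A hA

end Vale.Agent.Lib.P037
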