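import Vale.Agent.Lib.P037.Statement

/-!
# P037: symmetries of the polynomial removal property
complement, transpose, reversal of the row order, reversal of the column order
-/

namespace Vale.Agent.Lib.P037
open Finset

variable {k : ℕ}

/-- abstract transfer principle -/
theorem polyRemoval_of_symm (H H' : Matrix (Fin k) (Fin k) Bool)
    (Φ : ∀ n : ℕ, Matrix (Fin n) (Fin n) Bool → Matrix (Fin n) (Fin n) Bool)
    (hcop : ∀ n (A : Matrix (Fin n) (Fin n) Bool), numCopies H' A = numCopies H (Φ n A))
    (hfree : ∀ n (A : Matrix (Fin n) (Fin n) Bool), IsFree H' A ↔ IsFree H (Φ n A))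
    (hdiff : ∀ n (A B : Matrix (Fin n) (Fin n) Bool), numDiff (Φ n A) (Φ n B) = numDiff A B)
    (hsurj : ∀ n, Function.Surjective (Φ n)) (h : PolyRemoval H) : PolyRemoval H' := by
  obtain ⟨c, C, hc, hC, h⟩ := h
  refine ⟨c, C, hc, hC, ?_⟩
  intro n hn ε hε hε1 A hdist
  have hd : distFree H' A = distFree H (Φ n A) := by
    unfold distFree
    have : {d : ℕ | ∃ B : Matrix (Fin n) (Fin n) Bool, IsFree H' B ∧ numDiff A B = d}
        = {d : ℕ | ∃ B : Matrix (Fin n) (Fin n) Bool, IsFree H B ∧ numDiff (Φ n A) B = d} := by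
      ext d
      constructor
      · rintro ⟨B, hB, hd⟩
        exact ⟨Φ n B, (hfree n B).1 hB, by rw [hdiff, hd]⟩
      · rintro ⟨B', hB, hd⟩
        obtain ⟨B, rfl⟩ := hsurj n B'
        exact ⟨B, (hfree n B).2 hB, by rw [← hdiff, hd]⟩
    rw [this]
  rw [hd] at hdist
  rw [hcop]
  exact h n hn ε hε hε1 (Φ n A) hdist

/-! ### complement -/

theorem isCopy_map_not {n : ℕ} (H : Matrix (Fin k) (Fin k) Bool) (A : Matrix (Fin n) (Fin n) Bool)
    (r c : Fin k → Fin n) : IsCopy (H.map not) A r c ↔ IsCopy H (A.map not) r c := by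
  unfold IsCopy
  refine and_congr Iff.rfl (and_congr Iff.rfl ?_)
  refine forall_congr' fun i => forall_congr' fun j => ?_
  rw [Matrix.map_apply, Matrix.map_apply]
  have key : ∀ a b : Bool, (a = !b) ↔ ((!a) = b) := by decide
  exact key _ _

theorem numDiff_map_not' {n : ℕ} (A B : Matrix (Fin n) (Fin n) Bool) :
    numDiff (A.map not) (B.map not) = numDiff A B := by
  unfold numDiff
  congr 1
  ext p
  have key : ∀ a b : Bool, ((!a) ≠ (!b)) ↔ a ≠ b := by decide
  rw [Finset.mem_filter, Finset.mem_filter]
  simp only [Finset.mem_univ, true_and, Matrix.map_apply]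
  exact key _ _

theorem polyRemoval_map_not (H : Matrix (Fin k) (Fin k) Bool) (h : PolyRemoval H) :
    PolyRemoval (H.map not) := by
  refine polyRemoval_of_symm H (H.map not) (fun _ A => A.map not) ?_ ?_ ?_ ?_ h
  · intro n A
    unfold numCopies
    exact Nat.card_congr (Equiv.subtypeEquivRight fun p => isCopy_map_not H A p.1 p.2)
  · intro n A
    unfold IsFree
    exact forall_congr' fun r => forall_congr' fun c => not_congr (isCopy_map_not H A r c)
  · intro n A B
    exact numDiff_map_not' A B
  · intro n B
    refine ⟨B.map not, ?_⟩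
    ext i j
    simp

/-! ### transpose -/

theorem isCopy_transpose {n : ℕ} (H : Matrix (Fin k) (Fin k) Bool)
    (A : Matrix (Fin n) (Fin n) Bool) (r c : Fin k → Fin n) :
    IsCopy H.transpose A r c ↔ IsCopy H A.transpose c r := by
  unfold IsCopy
  constructor
  · rintro ⟨h1, h2, h3⟩
    exact ⟨h2, h1, fun i j => by simpa using h3 j i⟩
  · rintro ⟨h1, h2, h3⟩
    exact ⟨h2, h1, fun i j => by simpa using h3 j i⟩

theorem numDiff_transpose {n : ℕ} (A B : Matrix (Fin n) (Fin n) Bool) :
    numDiff A.transpose B.transpose = numDiff A B := by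
  unfold numDiff
  apply Finset.card_equiv (Equiv.prodComm (Fin n) (Fin n))
  intro p
  rw [Finset.mem_filter, Finset.mem_filter]
  simp

theorem polyRemoval_transpose (H : Matrix (Fin k) (Fin k) Bool) (h : PolyRemoval H) :
    PolyRemoval H.transpose := by
  refine polyRemoval_of_symm H H.transpose (fun _ A => A.transpose) ?_ ?_ ?_ ?_ h
  · intro n A
    unfold numCopies
    exact Nat.card_congr (Equiv.subtypeEquiv (Equiv.prodComm _ _)
      fun p => isCopy_transpose H A p.1 p.2)
  · intro n A
    unfold IsFree
    constructor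
    · intro hf r c hc
      exact hf c r ((isCopy_transpose H A c r).2 hc)
    · intro hf r c hc
      exact hf c r ((isCopy_transpose H A r c).1 hc)
  · intro n A B
    exact numDiff_transpose A B
  · intro n B
    exact ⟨B.transpose, by simp⟩

/-! ### reversal of the row order -/

/-- reverse the order of the rows -/
def revRows {n : ℕ} (A : Matrix (Fin n) (Fin n) Bool) : Matrix (Fin n) (Fin n) Bool :=
  fun i j => A (Fin.rev i) j

/-- conjugation of an index map by the two reversals -/
def conjRev {n : ℕ} (r : Fin k → Fin n) : Fin k → Fin n := fun i => Fin.rev (r (Fin.rev i))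

theorem conjRev_conjRev {n : ℕ} (r : Fin k → Fin n) : conjRev (conjRev r) = r := by
  funext i
  simp [conjRev]

theorem strictMono_conjRev {n : ℕ} (r : Fin k → Fin n) (h : StrictMono r) :
    StrictMono (conjRev r) := by
  intro i j hij
  unfold conjRev
  rw [Fin.rev_lt_rev]
  exact h (Fin.rev_lt_rev.2 hij)

theorem isCopy_revRows {n : ℕ} (H : Matrix (Fin k) (Fin k) Bool)
    (A : Matrix (Fin n) (Fin n) Bool) (r c : Fin k → Fin n) :
    IsCopy (revRows H) A r c ↔ IsCopy H (revRows A) (conjRev r) c := by
  unfold IsCopy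
  constructor
  · rintro ⟨h1, h2, h3⟩
    refine ⟨strictMono_conjRev r h1, h2, fun i j => ?_⟩
    have := h3 (Fin.rev i) j
    simpa [revRows, conjRev] using this
  · rintro ⟨h1, h2, h3⟩
    refine ⟨?_, h2, fun i j => ?_⟩
    · have := strictMono_conjRev _ h1
      rwa [conjRev_conjRev] at this
    · have := h3 (Fin.rev i) j
      simpa [revRows, conjRev] using this

/-- `conjRev` as an equivalence -/
def conjRevEquiv (n : ℕ) : (Fin k → Fin n) ≃ (Fin k → Fin n) where
  toFun := conjRev
  invFun := conjRev
  left_inv := conjRev_conjRev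
  right_inv := conjRev_conjRev

theorem numDiff_revRows {n : ℕ} (A B : Matrix (Fin n) (Fin n) Bool) :
    numDiff (revRows A) (revRows B) = numDiff A B := by
  unfold numDiff
  apply Finset.card_equiv ((Fin.revPerm).prodCongr (Equiv.refl (Fin n)))
  intro p
  rw [Finset.mem_filter, Finset.mem_filter]
  simp [revRows]

theorem polyRemoval_revRows (H : Matrix (Fin k) (Fin k) Bool) (h : PolyRemoval H) :
    PolyRemoval (revRows H) := by
  refine polyRemoval_of_symm H (revRows H) (fun _ A => revRows A) ?_ ?_ ?_ ?_ h
  · intro n A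
    unfold numCopies
    exact Nat.card_congr (Equiv.subtypeEquiv ((conjRevEquiv n).prodCongr (Equiv.refl _))
      fun p => isCopy_revRows H A p.1 p.2)
  · intro n A
    unfold IsFree
    constructor
    · intro hf r c hc
      apply hf (conjRev r) c
      rw [isCopy_revRows, conjRev_conjRev]
      exact hc
    · intro hf r c hc
      exact hf (conjRev r) c ((isCopy_revRows H A r c).1 hc)
  · intro n A B
    exact numDiff_revRows A B
  · intro n B
    refine ⟨revRows B, ?_⟩
    funext i j
    simp [revRows]

/-! ### reversal of the column order -/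

/-- reverse the order of the columns -/
def revCols {n : ℕ} (A : Matrix (Fin n) (Fin n) Bool) : Matrix (Fin n) (Fin n) Bool :=
  fun i j => A i (Fin.rev j)

theorem revCols_eq {n : ℕ} (A : Matrix (Fin n) (Fin n) Bool) :
    revCols A = (revRows A.transpose).transpose := rfl

theorem polyRemoval_revCols (H : Matrix (Fin k) (Fin k) Bool) (h : PolyRemoval H) :
    PolyRemoval (revCols H) := by
  rw [revCols_eq]
  exact polyRemoval_transpose _ (polyRemoval_revRows _ (polyRemoval_transpose _ h))

end Vale.Agent.Lib.P037
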