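import Vale.Agent.Lib.P037.Bridge
import Vale.Agent.Lib.P037.Symm
import Vale.Agent.Lib.P037.Const
import Vale.Agent.Lib.P037.EqRows

/-!
# P037: from the five base patterns to all sixteen `2 × 2` patterns
-/

namespace Vale.Agent.Lib.P037

/-- `L = [[1,1],[1,0]]` -/
def patL0 : Matrix (Fin 2) (Fin 2) Bool := !![true, true; true, false]

theorem eq_of_entries (H H' : Matrix (Fin 2) (Fin 2) Bool) (h00 : H 0 0 = H' 0 0)
    (h01 : H 0 1 = H' 0 1) (h10 : H 1 0 = H' 1 0) (h11 : H 1 1 = H' 1 1) : H = H' := by
  ext i j
  fin_cases i <;> fin_cases j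
  · exact h00
  · exact h01
  · exact h10
  · exact h11

theorem polyRemoval_all_two (hL : PolyRemoval patL0) :
    ∀ H : Matrix (Fin 2) (Fin 2) Bool, PolyRemoval H := by
  intro H
  have hE := polyRemoval_patE
  -- the four patterns with three ones
  have L1 : PolyRemoval (revRows patL0) := polyRemoval_revRows _ hL
  have L2 : PolyRemoval (revCols patL0) := polyRemoval_revCols _ hL
  have L3 : PolyRemoval (revCols (revRows patL0)) := polyRemoval_revCols _ L1
  -- their complements
  have L4 := polyRemoval_map_not _ hL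
  have L5 := polyRemoval_map_not _ L1
  have L6 := polyRemoval_map_not _ L2
  have L7 := polyRemoval_map_not _ L3
  -- the class of `E`
  have E1 := polyRemoval_map_not _ hE
  have E2 := polyRemoval_transpose _ hE
  have E3 := polyRemoval_map_not _ E2
  rcases h00 : H 0 0 with _ | _ <;> rcases h01 : H 0 1 with _ | _ <;>
    rcases h10 : H 1 0 with _ | _ <;> rcases h11 : H 1 1 with _ | _
  · rw [eq_of_entries H patZeros h00 h01 h10 h11]; exact polyRemoval_patZeros
  · rw [eq_of_entries H (patL0.map not) h00 h01 h10 h11]; exact L4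
  · rw [eq_of_entries H ((revCols patL0).map not) h00 h01 h10 h11]; exact L6
  · rw [eq_of_entries H ((patE.transpose).map not) h00 h01 h10 h11]; exact E3
  · rw [eq_of_entries H ((revRows patL0).map not) h00 h01 h10 h11]; exact L5
  · rw [eq_of_entries H (patE.map not) h00 h01 h10 h11]; exact E1
  · rw [eq_of_entries H patJ h00 h01 h10 h11]; exact polyRemoval_patJ
  · rw [eq_of_entries H (revCols (revRows patL0)) h00 h01 h10 h11]; exact L3
  · rw [eq_of_entries H ((revCols (revRows patL0)).map not) h00 h01 h10 h11]; exact L7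
  · rw [eq_of_entries H patI h00 h01 h10 h11]; exact polyRemoval_patI
  · rw [eq_of_entries H patE h00 h01 h10 h11]; exact hE
  · rw [eq_of_entries H (revRows patL0) h00 h01 h10 h11]; exact L1
  · rw [eq_of_entries H patE.transpose h00 h01 h10 h11]; exact E2
  · rw [eq_of_entries H (revCols patL0) h00 h01 h10 h11]; exact L2
  · rw [eq_of_entries H patL0 h00 h01 h10 h11]; exact hL
  · rw [eq_of_entries H patOnes h00 h01 h10 h11]; exact polyRemoval_patOnes

end Vale.Agent.Lib.P037
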