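import Mathlib

namespace Vale.Agent.Lib.P037
open Finset

variable {ι α : Type*} [Fintype ι] [DecidableEq ι] [DecidableEq α]

theorem sum_pi_two_aux (S : ι → Finset α) (t t' : ι) (h : t ≠ t') (x y : α)
    (hx : x ∈ S t) (hy : y ∈ S t') :
    (∑ ω ∈ Fintype.piFinset S, (if ω t = x ∧ ω t' = y then (1 : ℝ) else 0)) * (#(S t) * #(S t'))
      = #(Fintype.piFinset S) := by
  have key := Finset.prod_univ_sum S
    (fun i j => if i = t then (if j = x then (1 : ℝ) else 0)
      else if i = t' then (if j = y then (1 : ℝ) else 0) else 1)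
  have e1 : ∀ ω : ι → α, (∏ i, (if i = t then (if ω i = x then (1 : ℝ) else 0)
      else if i = t' then (if ω i = y then (1 : ℝ) else 0) else 1))
      = if ω t = x ∧ ω t' = y then (1 : ℝ) else 0 := by
    intro ω
    rw [← Finset.mul_prod_erase univ _ (Finset.mem_univ t),
      ← Finset.mul_prod_erase (univ.erase t) _ (Finset.mem_erase.2 ⟨h.symm, Finset.mem_univ t'⟩)]
    have e2 : ∏ i ∈ (univ.erase t).erase t', (if i = t then (if ω i = x then (1 : ℝ) else 0)
      else if i = t' then (if ω i = y then (1 : ℝ) else 0) else 1) = 1 := by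
      apply Finset.prod_eq_one
      intro i hi
      have h1 : i ≠ t' := (Finset.mem_erase.1 hi).1
      have h2 : i ≠ t := (Finset.mem_erase.1 (Finset.mem_erase.1 hi).2).1
      simp [h1, h2]
    rw [e2]
    simp only [if_true, if_neg h.symm, mul_one]
    by_cases a1 : ω t = x <;> by_cases a2 : ω t' = y <;> simp [a1, a2]
  have e3 : (∑ ω ∈ Fintype.piFinset S, (if ω t = x ∧ ω t' = y then (1 : ℝ) else 0))
      = ∏ i ∈ (univ.erase t).erase t', (#(S i) : ℝ) := by
    rw [← Finset.sum_congr rfl (fun ω _ => e1 ω), ← key,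
      ← Finset.mul_prod_erase univ _ (Finset.mem_univ t),
      ← Finset.mul_prod_erase (univ.erase t) _ (Finset.mem_erase.2 ⟨h.symm, Finset.mem_univ t'⟩)]
    have e4 : ∏ i ∈ (univ.erase t).erase t', (∑ j ∈ S i,
        (if i = t then (if j = x then (1 : ℝ) else 0)
          else if i = t' then (if j = y then (1 : ℝ) else 0) else 1))
        = ∏ i ∈ (univ.erase t).erase t', (#(S i) : ℝ) := by
      apply Finset.prod_congr rfl
      intro i hi
      have h1 : i ≠ t' := (Finset.mem_erase.1 hi).1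
      have h2 : i ≠ t := (Finset.mem_erase.1 (Finset.mem_erase.1 hi).2).1
      simp [h1, h2]
    rw [e4]
    simp only [if_true, if_neg h.symm]
    rw [Finset.sum_ite_eq' (S t) x, Finset.sum_ite_eq' (S t') y, if_pos hx, if_pos hy]
    ring
  rw [e3, Fintype.card_piFinset]
  push_cast
  rw [← Finset.mul_prod_erase univ (fun i => (#(S i) : ℝ)) (Finset.mem_univ t),
    ← Finset.mul_prod_erase (univ.erase t) (fun i => (#(S i) : ℝ))
      (Finset.mem_erase.2 ⟨h.symm, Finset.mem_univ t'⟩)]
  ring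

theorem sum_pi_one_aux (S : ι → Finset α) (t : ι) (x : α) (hx : x ∈ S t) :
    (∑ ω ∈ Fintype.piFinset S, (if ω t = x then (1 : ℝ) else 0)) * #(S t)
      = #(Fintype.piFinset S) := by
  have key := Finset.prod_univ_sum S
    (fun i j => if i = t then (if j = x then (1 : ℝ) else 0) else 1)
  have e1 : ∀ ω : ι → α, (∏ i, (if i = t then (if ω i = x then (1 : ℝ) else 0) else 1))
      = if ω t = x then (1 : ℝ) else 0 := by
    intro ω
    rw [← Finset.mul_prod_erase univ _ (Finset.mem_univ t)]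
    have e2 : ∏ i ∈ univ.erase t, (if i = t then (if ω i = x then (1 : ℝ) else 0) else 1) = 1 := by
      apply Finset.prod_eq_one
      intro i hi
      have h2 : i ≠ t := (Finset.mem_erase.1 hi).1
      simp [h2]
    rw [e2]
    simp
  have e3 : (∑ ω ∈ Fintype.piFinset S, (if ω t = x then (1 : ℝ) else 0))
      = ∏ i ∈ univ.erase t, (#(S i) : ℝ) := by
    rw [← Finset.sum_congr rfl (fun ω _ => e1 ω), ← key,
      ← Finset.mul_prod_erase univ _ (Finset.mem_univ t)]
    have e4 : ∏ i ∈ univ.erase t, (∑ j ∈ S i,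
        (if i = t then (if j = x then (1 : ℝ) else 0) else 1))
        = ∏ i ∈ univ.erase t, (#(S i) : ℝ) := by
      apply Finset.prod_congr rfl
      intro i hi
      have h2 : i ≠ t := (Finset.mem_erase.1 hi).1
      simp [h2]
    rw [e4]
    simp only [if_true]
    rw [Finset.sum_ite_eq' (S t) x, if_pos hx]
    ring
  rw [e3, Fintype.card_piFinset]
  push_cast
  rw [← Finset.mul_prod_erase univ (fun i => (#(S i) : ℝ)) (Finset.mem_univ t)]
  ring

theorem sum_pi_one (S : ι → Finset α) (hS : ∀ t, (S t).Nonempty) (t : ι) (g : α → ℝ) :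
    ∑ ω ∈ Fintype.piFinset S, g (ω t)
      = (#(Fintype.piFinset S) : ℝ) / #(S t) * ∑ x ∈ S t, g x := by
  have hpos : (0 : ℝ) < #(S t) := by exact_mod_cast Finset.card_pos.2 (hS t)
  have e1 : ∀ ω ∈ Fintype.piFinset S, g (ω t)
      = ∑ x ∈ S t, (if ω t = x then (1 : ℝ) else 0) * g x := by
    intro ω hω
    have hm : ω t ∈ S t := Fintype.mem_piFinset.1 hω t
    simp only [ite_mul, one_mul, zero_mul]
    rw [Finset.sum_ite_eq (S t) (ω t), if_pos hm]
  rw [Finset.sum_congr rfl e1, Finset.sum_comm, Finset.mul_sum]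
  apply Finset.sum_congr rfl
  intro x hx
  rw [← Finset.sum_mul]
  have := sum_pi_one_aux S t x hx
  rw [← this]
  field_simp

theorem sum_pi_two (S : ι → Finset α) (hS : ∀ t, (S t).Nonempty) (t t' : ι) (h : t ≠ t')
    (g : α → α → ℝ) :
    ∑ ω ∈ Fintype.piFinset S, g (ω t) (ω t')
      = (#(Fintype.piFinset S) : ℝ) / (#(S t) * #(S t')) * ∑ x ∈ S t, ∑ y ∈ S t', g x y := by
  have hpos : (0 : ℝ) < #(S t) := by exact_mod_cast Finset.card_pos.2 (hS t)
  have hpos' : (0 : ℝ) < #(S t') := by exact_mod_cast Finset.card_pos.2 (hS t')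
  have e1 : ∀ ω ∈ Fintype.piFinset S, g (ω t) (ω t')
      = ∑ x ∈ S t, ∑ y ∈ S t', (if ω t = x ∧ ω t' = y then (1 : ℝ) else 0) * g x y := by
    intro ω hω
    have hm : ω t ∈ S t := Fintype.mem_piFinset.1 hω t
    have hm' : ω t' ∈ S t' := Fintype.mem_piFinset.1 hω t'
    rw [Finset.sum_eq_single (ω t), Finset.sum_eq_single (ω t')]
    · simp
    · intro y _ hy
      rw [if_neg (fun hh => hy hh.2.symm), zero_mul]
    · intro hh; exact absurd hm' hh
    · intro x _ hx
      apply Finset.sum_eq_zero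
      intro y _
      rw [if_neg (fun hh => hx hh.1.symm), zero_mul]
    · intro hh; exact absurd hm hh
  rw [Finset.sum_congr rfl e1, Finset.sum_comm, Finset.mul_sum]
  apply Finset.sum_congr rfl
  intro x hx
  rw [Finset.sum_comm, Finset.mul_sum]
  apply Finset.sum_congr rfl
  intro y hy
  rw [← Finset.sum_mul]
  have := sum_pi_two_aux S t t' h x y hx hy
  rw [← this]
  field_simp

theorem exists_le_avg (S : ι → Finset α) (hS : ∀ t, (S t).Nonempty) (f : (ι → α) → ℝ) (b : ℝ)
    (h : ∑ ω ∈ Fintype.piFinset S, f ω ≤ b * #(Fintype.piFinset S)) :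
    ∃ ω ∈ Fintype.piFinset S, f ω ≤ b := by
  have hne : (Fintype.piFinset S).Nonempty := Fintype.piFinset_nonempty.2 hS
  apply Finset.exists_le_of_sum_le hne (g := fun _ => b)
  rw [Finset.sum_const, nsmul_eq_mul]
  linarith

end Vale.Agent.Lib.P037
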