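import Vale.Agent.Lib.P037.Types
import Vale.Agent.Lib.P037.ProdAvg

namespace Vale.Agent.Lib.P037
open Finset
variable {n m q L : ℕ}

theorem le_aux_real (a b : ℝ) (ha : 0 ≤ a) (hab : a ≤ b) (η : ℝ) (hη : 0 < η) :
    a ≤ η + (a * b) / η := by
  have h : η + (a * b) / η - a = (η ^ 2 + a * b - a * η) / η := by
    field_simp
  have h2 : 0 ≤ (η ^ 2 + a * b - a * η) / η := by
    apply div_nonneg _ hη.le
    rcases le_total a η with h' | h' <;> nlinarith
  linarith

/-- elementary: `a + b ≤ |a-b| + 2η + 2ab/η` -/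
theorem add_le_aux (a b : ℕ) (η : ℝ) (hη : 0 < η) :
    (a : ℝ) + b ≤ |(a : ℝ) - b| + 2 * η + 2 * ((a : ℝ) * b) / η := by
  have ha : (0:ℝ) ≤ a := Nat.cast_nonneg a
  have hb : (0:ℝ) ≤ b := Nat.cast_nonneg b
  have e : 2 * ((a : ℝ) * b) / η = 2 * (((a : ℝ) * b) / η) := by ring
  rw [e]
  rcases le_total (a:ℝ) b with h | h
  · have h1 := le_aux_real a b ha h η hη
    have h2 : |(a : ℝ) - b| = b - a := by rw [abs_sub_comm]; exact abs_of_nonneg (by linarith)
    rw [h2]; linarith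
  · have h1 := le_aux_real b a hb h η hη
    have h2 : |(a : ℝ) - b| = a - b := abs_of_nonneg (by linarith)
    have h3 : (b : ℝ) * a = a * b := by ring
    rw [h3] at h1
    rw [h2]; linarith

/-- the part of the energy belonging to row `i` -/
noncomputable def enRow (A : Fin n → Fin m → Bool) (σ : Fin n → Fin q) (i : Fin n) : ℝ :=
  ∑ y, if σ i = σ y then ((dif A i y : ℝ) * dif A y i) else 0

theorem enRow_nonneg (A : Fin n → Fin m → Bool) (σ : Fin n → Fin q) (i : Fin n) :
    0 ≤ enRow A σ i :=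
  Finset.sum_nonneg (fun y _ => by split_ifs <;> positivity)

theorem sum_enRow (A : Fin n → Fin m → Bool) (σ : Fin n → Fin q) :
    (energy A σ : ℝ) = ∑ i, enRow A σ i := by
  simp only [energy, enRow]
  push_cast
  rfl

theorem sum_mem_le_enRow (A : Fin n → Fin m → Bool) (σ : Fin n → Fin q) (lev : Fin n → Fin L)
    (i : Fin n) :
    ∑ x ∈ mem σ lev (ty σ lev i), ((dif A i x : ℝ) * dif A x i) ≤ enRow A σ i := by
  rw [mem, Finset.sum_filter, enRow]
  apply Finset.sum_le_sum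
  intro x _
  by_cases hx : ty σ lev x = ty σ lev i
  · have : σ i = σ x := (congrArg Prod.fst hx).symm
    rw [if_pos hx, if_pos this]
  · rw [if_neg hx]
    split_ifs <;> positivity

theorem sum_mem_add_le (A : Fin n → Fin m → Bool) (σ : Fin n → Fin q) (lev : Fin n → Fin L)
    (μ η : ℝ) (hη : 0 < η)
    (hlev2 : ∀ x y, lev x = lev y → |(rs A x : ℝ) - rs A y| ≤ μ) (i : Fin n) :
    ∑ x ∈ mem σ lev (ty σ lev i), ((dif A i x : ℝ) + dif A x i)
      ≤ #(mem σ lev (ty σ lev i)) * (μ + 2*η) + 2 / η * enRow A σ i := by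
  have hsum := sum_mem_le_enRow A σ lev i
  calc ∑ x ∈ mem σ lev (ty σ lev i), ((dif A i x : ℝ) + dif A x i)
      ≤ ∑ x ∈ mem σ lev (ty σ lev i), ((μ + 2*η) + 2/η * ((dif A i x : ℝ) * dif A x i)) := by
        apply Finset.sum_le_sum
        intro x hx
        have hx' : ty σ lev x = ty σ lev i := by simpa [mem] using hx
        have hlev : lev i = lev x := (congrArg Prod.snd hx').symm
        have h0 := add_le_aux (dif A i x) (dif A x i) η hη
        have h2 : |((dif A i x : ℝ)) - dif A x i| ≤ μ := by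
          have h3 := rs_sub A i x
          have h4 : ((rs A i : ℝ)) - rs A x = (dif A i x : ℝ) - dif A x i := by
            exact_mod_cast h3
          rw [← h4]; exact hlev2 i x hlev
        have h5 : 2 * ((dif A i x : ℝ) * dif A x i) / η
            = 2/η * ((dif A i x : ℝ) * dif A x i) := by ring
        linarith
    _ = #(mem σ lev (ty σ lev i)) * (μ + 2*η)
          + 2/η * ∑ x ∈ mem σ lev (ty σ lev i), ((dif A i x : ℝ) * dif A x i) := by
        rw [Finset.sum_add_distrib, Finset.sum_const, nsmul_eq_mul, Finset.mul_sum]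
    _ ≤ #(mem σ lev (ty σ lev i)) * (μ + 2*η) + 2 / η * enRow A σ i := by
        have : 0 ≤ 2 / η := by positivity
        linarith [mul_le_mul_of_nonneg_left hsum this]

theorem arith_cost1 (P M s μ η E S : ℝ) (hP : 0 ≤ P) (hM : 0 < M) (hs : 0 < s) (hsM : s ≤ M)
    (hη : 0 < η) (hE : 0 ≤ E) (h1 : S ≤ M * (μ + 2*η) + 2 / η * E) :
    P / M * S ≤ ((μ + 2 * η) + 2 * E / (s * η)) * P := by
  calc P / M * S ≤ P / M * (M * (μ + 2*η) + 2 / η * E) := by
        apply mul_le_mul_of_nonneg_left h1; positivity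
    _ = ((μ + 2 * η) + 2 * E / (M * η)) * P := by
        field_simp
    _ ≤ ((μ + 2 * η) + 2 * E / (s * η)) * P := by
        apply mul_le_mul_of_nonneg_right _ hP
        have : 2 * E / (M * η) ≤ 2 * E / (s * η) := by
          apply div_le_div_of_nonneg_left (by positivity) (by positivity)
          exact mul_le_mul_of_nonneg_right hsM hη.le
        linarith

theorem avg_cost1_key (hn : 0 < n) (A : Fin n → Fin m → Bool) (σ : Fin n → Fin q)
    (lev : Fin n → Fin L)
    (s : ℕ) (hs : 1 ≤ s) (μ η : ℝ) (hμ : 0 ≤ μ) (hη : 0 < η)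
    (hlev2 : ∀ x y, lev x = lev y → |(rs A x : ℝ) - rs A y| ≤ μ) (i : Fin n) :
    ∑ ω ∈ Fintype.piFinset (SS σ lev s), (if s ≤ #(mem σ lev (ty σ lev i)) then
      ((dif A i (ω (ty σ lev i)) : ℝ) + dif A (ω (ty σ lev i)) i) else 0)
      ≤ ((μ + 2 * η) + 2 * enRow A σ i / (s * η)) * #(Fintype.piFinset (SS σ lev s)) := by
  classical
  have hS : ∀ t, (SS σ lev s t).Nonempty := SS_nonempty hn σ lev s hs
  have hspos : (0:ℝ) < s := by exact_mod_cast hs
  have hE0 := enRow_nonneg A σ i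
  by_cases hact : s ≤ #(mem σ lev (ty σ lev i))
  · simp only [if_pos hact]
    rw [sum_pi_one (SS σ lev s) hS (ty σ lev i) (fun x => (dif A i x : ℝ) + dif A x i)]
    have hSS : SS σ lev s (ty σ lev i) = mem σ lev (ty σ lev i) := by
      unfold SS; rw [if_pos hact]
    rw [hSS]
    have hMpos : (0:ℝ) < #(mem σ lev (ty σ lev i)) := by
      have : 0 < #(mem σ lev (ty σ lev i)) := by omega
      exact_mod_cast this
    have hsM : (s:ℝ) ≤ #(mem σ lev (ty σ lev i)) := by exact_mod_cast hact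
    exact arith_cost1 _ _ _ _ _ _ _ (Nat.cast_nonneg _) hMpos hspos hsM hη hE0
      (sum_mem_add_le A σ lev μ η hη hlev2 i)
  · simp only [if_neg hact, Finset.sum_const_zero]
    positivity

/-- AVERAGE OF COST 1.  Use `sum_pi_one` for each `i`, then for `y ∈ mem (ty i)`:
`dif i y + dif y i ≤ μ + 2η + 2 dif i y * dif y i / η` (by `rs_sub`, `hlev2`, `add_le_aux`),
`1/#(mem t) ≤ 1/s`, and `∑_i ∑_{y ∈ mem (ty i)} dif i y * dif y i ≤ energy`. -/
theorem avg_cost1 (hn : 0 < n) (A : Fin n → Fin m → Bool) (σ : Fin n → Fin q) (lev : Fin n → Fin L)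
    (s : ℕ) (hs : 1 ≤ s) (μ η : ℝ) (hμ : 0 ≤ μ) (hη : 0 < η)
    (hlev2 : ∀ x y, lev x = lev y → |(rs A x : ℝ) - rs A y| ≤ μ) :
    ∑ ω ∈ Fintype.piFinset (SS σ lev s), cost1 A σ lev s ω
      ≤ ((n : ℝ) * (μ + 2 * η) + 2 * (energy A σ : ℝ) / (s * η)) * #(Fintype.piFinset (SS σ lev s)) := by
  classical
  calc ∑ ω ∈ Fintype.piFinset (SS σ lev s), cost1 A σ lev s ω
      = ∑ i, ∑ ω ∈ Fintype.piFinset (SS σ lev s), (if s ≤ #(mem σ lev (ty σ lev i)) then
      ((dif A i (ω (ty σ lev i)) : ℝ) + dif A (ω (ty σ lev i)) i) else 0) := by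
        simp only [cost1]
        rw [Finset.sum_comm]
    _ ≤ ∑ i : Fin n, ((μ + 2 * η) + 2 * enRow A σ i / (s * η))
          * #(Fintype.piFinset (SS σ lev s)) :=
        Finset.sum_le_sum (fun i _ => avg_cost1_key hn A σ lev s hs μ η hμ hη hlev2 i)
    _ = ((n : ℝ) * (μ + 2 * η) + 2 * (energy A σ : ℝ) / (s * η))
          * #(Fintype.piFinset (SS σ lev s)) := by
        rw [← Finset.sum_mul, Finset.sum_add_distrib, Finset.sum_const, Finset.card_univ,
          Fintype.card_fin, nsmul_eq_mul, sum_enRow, Finset.mul_sum, Finset.sum_div]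

end Vale.Agent.Lib.P037
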