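import Vale.Agent.Lib.P037.Types
import Vale.Agent.Lib.P037.ProdAvg

namespace Vale.Agent.Lib.P037
open Finset
variable {n m q L : ℕ}

/-- elementary: if `a ≤ b` then `a ≤ η + ab/η` -/
theorem le_aux (a b : ℕ) (hab : a ≤ b) (η : ℝ) (hη : 0 < η) :
    (a : ℝ) ≤ η + ((a : ℝ) * b) / η := by
  have ha : (0:ℝ) ≤ a := Nat.cast_nonneg a
  have hab' : (a:ℝ) ≤ b := by exact_mod_cast hab
  have h : η + ((a:ℝ) * b) / η - a = (η ^ 2 + a * b - a * η) / η := by
    field_simp
  have h2 : 0 ≤ (η ^ 2 + (a:ℝ) * b - a * η) / η := by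
    apply div_nonneg _ hη.le
    rcases le_total (a:ℝ) η with h' | h' <;> nlinarith
  linarith

/-- the part of the energy belonging to row `i` (second copy, private to this file) -/
noncomputable def enRow2 (A : Fin n → Fin m → Bool) (σ : Fin n → Fin q) (i : Fin n) : ℝ :=
  ∑ y, if σ i = σ y then ((dif A i y : ℝ) * dif A y i) else 0

theorem enRow2_nonneg (A : Fin n → Fin m → Bool) (σ : Fin n → Fin q) (i : Fin n) :
    0 ≤ enRow2 A σ i :=
  Finset.sum_nonneg (fun y _ => by split_ifs <;> positivity)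

theorem sum_enRow2 (A : Fin n → Fin m → Bool) (σ : Fin n → Fin q) :
    (energy A σ : ℝ) = ∑ i, enRow2 A σ i := by
  simp only [energy, enRow2]
  push_cast
  rfl

/-- pair weight -/
noncomputable def Wt (A : Fin n → Fin m → Bool) (σ : Fin n → Fin q) (lev : Fin n → Fin L)
    (t1 t : Fin q × Fin L) : ℝ :=
  ∑ x ∈ mem σ lev t1, ∑ y ∈ mem σ lev t, ((dif A x y : ℝ) * dif A y x)

theorem Wt_nonneg (A : Fin n → Fin m → Bool) (σ : Fin n → Fin q) (lev : Fin n → Fin L)
    (t1 t : Fin q × Fin L) : 0 ≤ Wt A σ lev t1 t :=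
  Finset.sum_nonneg (fun _ _ => Finset.sum_nonneg (fun _ _ => by positivity))

theorem pair_bound (A : Fin n → Fin m → Bool) (σ : Fin n → Fin q) (lev : Fin n → Fin L)
    (η : ℝ) (hη : 0 < η) (hlev1 : ∀ x y, lev x < lev y → rs A x ≤ rs A y)
    (t1 t : Fin q × Fin L) (h : t1.2 < t.2) :
    ∑ x ∈ mem σ lev t1, ∑ y ∈ mem σ lev t, (dif A x y : ℝ)
      ≤ #(mem σ lev t1) * #(mem σ lev t) * η + 1 / η * Wt A σ lev t1 t := by
  calc ∑ x ∈ mem σ lev t1, ∑ y ∈ mem σ lev t, (dif A x y : ℝ)
      ≤ ∑ x ∈ mem σ lev t1, ∑ y ∈ mem σ lev t, (η + 1 / η * ((dif A x y : ℝ) * dif A y x)) := by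
        apply Finset.sum_le_sum; intro x hx
        apply Finset.sum_le_sum; intro y hy
        have hx' : ty σ lev x = t1 := by simpa [mem] using hx
        have hy' : ty σ lev y = t := by simpa [mem] using hy
        have hlx : lev x = t1.2 := congrArg Prod.snd hx'
        have hly : lev y = t.2 := congrArg Prod.snd hy'
        have hlt : lev x < lev y := by rw [hlx, hly]; exact h
        have hrs := hlev1 x y hlt
        have h3 := rs_sub A x y
        have hd : dif A x y ≤ dif A y x := by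
          have : (rs A x : ℤ) ≤ rs A y := by exact_mod_cast hrs
          have : (dif A x y : ℤ) ≤ dif A y x := by linarith
          exact_mod_cast this
        have h0 := le_aux (dif A x y) (dif A y x) hd η hη
        have h5 : ((dif A x y : ℝ) * dif A y x) / η = 1/η * ((dif A x y : ℝ) * dif A y x) := by ring
        linarith
    _ = #(mem σ lev t1) * #(mem σ lev t) * η + 1 / η * Wt A σ lev t1 t := by
        simp only [Finset.sum_add_distrib, Finset.sum_const, nsmul_eq_mul, Wt, Finset.mul_sum]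
        ring

theorem arith_cost2 (P M1 M s η W S : ℝ) (hP : 0 ≤ P) (hM1 : 0 < M1) (hM : 0 < M) (hs : 0 < s)
    (hsM : s ≤ M1) (hη : 0 < η) (hW : 0 ≤ W) (h1 : S ≤ M1 * M * η + 1 / η * W) :
    P / (M1 * M) * S ≤ (η + W / (s * η * M)) * P := by
  calc P / (M1 * M) * S ≤ P / (M1 * M) * (M1 * M * η + 1 / η * W) := by
        apply mul_le_mul_of_nonneg_left h1; positivity
    _ = (η + W / (M1 * η * M)) * P := by
        field_simp
    _ ≤ (η + W / (s * η * M)) * P := by
        apply mul_le_mul_of_nonneg_right _ hP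
        have : W / (M1 * η * M) ≤ W / (s * η * M) := by
          apply div_le_div_of_nonneg_left hW (by positivity)
          apply mul_le_mul_of_nonneg_right _ hM.le
          exact mul_le_mul_of_nonneg_right hsM hη.le
        linarith

/-- one pair of types -/
theorem avg_pair (hn : 0 < n) (A : Fin n → Fin m → Bool) (σ : Fin n → Fin q) (lev : Fin n → Fin L)
    (s : ℕ) (hs : 1 ≤ s) (η : ℝ) (hη : 0 < η)
    (hlev1 : ∀ x y, lev x < lev y → rs A x ≤ rs A y)
    (t1 t : Fin q × Fin L) (h : t1.2 < t.2) (h1 : s ≤ #(mem σ lev t1)) (h2 : s ≤ #(mem σ lev t)) :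
    ∑ ω ∈ Fintype.piFinset (SS σ lev s), (dif A (ω t1) (ω t) : ℝ)
      ≤ (η + Wt A σ lev t1 t / (s * η * #(mem σ lev t))) * #(Fintype.piFinset (SS σ lev s)) := by
  classical
  have hS : ∀ t, (SS σ lev s t).Nonempty := SS_nonempty hn σ lev s hs
  have hspos : (0:ℝ) < s := by exact_mod_cast hs
  have hne : t1 ≠ t := by
    intro e; rw [e] at h; exact lt_irrefl _ h
  rw [sum_pi_two (SS σ lev s) hS t1 t hne (fun x y => (dif A x y : ℝ))]
  have hSS1 : SS σ lev s t1 = mem σ lev t1 := by unfold SS; rw [if_pos h1]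
  have hSS2 : SS σ lev s t = mem σ lev t := by unfold SS; rw [if_pos h2]
  rw [hSS1, hSS2]
  have hM1 : (0:ℝ) < #(mem σ lev t1) := by
    have : 0 < #(mem σ lev t1) := by omega
    exact_mod_cast this
  have hM : (0:ℝ) < #(mem σ lev t) := by
    have : 0 < #(mem σ lev t) := by omega
    exact_mod_cast this
  have hsM : (s:ℝ) ≤ #(mem σ lev t1) := by exact_mod_cast h1
  exact arith_cost2 _ _ _ _ _ _ _ (Nat.cast_nonneg _) hM1 hM hspos hsM hη (Wt_nonneg A σ lev t1 t)
    (pair_bound A σ lev η hη hlev1 t1 t h)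

/-- summing the pair weights over all types `t1` in the strip of `t` -/
theorem sum_Wt_le (A : Fin n → Fin m → Bool) (σ : Fin n → Fin q) (lev : Fin n → Fin L)
    (t : Fin q × Fin L) :
    ∑ t1 : Fin q × Fin L, (if t1.1 = t.1 then Wt A σ lev t1 t else 0)
      = ∑ y ∈ mem σ lev t, enRow2 A σ y := by
  classical
  set F : Fin n → ℝ := fun x => ∑ y ∈ mem σ lev t, ((dif A x y : ℝ) * dif A y x) with hF
  set G : Fin n → ℝ := fun x => if σ x = t.1 then F x else 0 with hG
  have h1 : ∑ t1 : Fin q × Fin L, (if t1.1 = t.1 then Wt A σ lev t1 t else 0)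
      = ∑ t1 : Fin q × Fin L, ∑ x ∈ mem σ lev t1, G x := by
    apply Finset.sum_congr rfl
    intro t1 _
    by_cases ht : t1.1 = t.1
    · rw [if_pos ht, Wt]
      apply Finset.sum_congr rfl
      intro x hx
      have hx' : ty σ lev x = t1 := by simpa [mem] using hx
      have : σ x = t.1 := by rw [← ht]; exact congrArg Prod.fst hx'
      simp only [hG, if_pos this, hF]
    · rw [if_neg ht]
      symm
      apply Finset.sum_eq_zero
      intro x hx
      have hx' : ty σ lev x = t1 := by simpa [mem] using hx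
      have : σ x ≠ t.1 := by
        intro e; apply ht; rw [← e]; exact (congrArg Prod.fst hx').symm
      simp only [hG, if_neg this]
  have h2 : ∑ t1 : Fin q × Fin L, ∑ x ∈ mem σ lev t1, G x = ∑ x, G x := by
    simp only [mem]
    exact Finset.sum_fiberwise univ (ty σ lev) G
  rw [h1, h2]
  simp only [hG, hF, enRow2]
  have h3 : ∀ x : Fin n, (if σ x = t.1 then ∑ y ∈ mem σ lev t, ((dif A x y : ℝ) * dif A y x) else 0)
      = ∑ y ∈ mem σ lev t, (if σ y = σ x then ((dif A y x : ℝ) * dif A x y) else 0) := by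
    intro x
    by_cases hx : σ x = t.1
    · rw [if_pos hx]
      apply Finset.sum_congr rfl
      intro y hy
      have hy' : ty σ lev y = t := by simpa [mem] using hy
      have : σ y = σ x := by rw [hx]; exact congrArg Prod.fst hy'
      rw [if_pos this]; ring
    · rw [if_neg hx]
      symm
      apply Finset.sum_eq_zero
      intro y hy
      have hy' : ty σ lev y = t := by simpa [mem] using hy
      have : σ y ≠ σ x := by
        intro e; apply hx; rw [← e]; exact congrArg Prod.fst hy'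
      rw [if_neg this]
  simp only [h3]
  rw [Finset.sum_comm]

theorem sum_strip_const (a : Fin q) (c : ℝ) :
    ∑ t1 : Fin q × Fin L, (if t1.1 = a then c else 0) = L * c := by
  rw [Fintype.sum_prod_type]
  rw [Finset.sum_eq_single a]
  · simp
  · intro b _ hb
    simp [hb]
  · intro h; exact absurd (Finset.mem_univ a) h

theorem avg_sum (σ : Fin n → Fin q) (lev : Fin n → Fin L) (f : Fin n → ℝ) :
    ∑ i, (∑ y ∈ mem σ lev (ty σ lev i), f y) / #(mem σ lev (ty σ lev i)) = ∑ y, f y := by
  classical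
  have h1 : ∀ i, (∑ y ∈ mem σ lev (ty σ lev i), f y) / #(mem σ lev (ty σ lev i))
      = ∑ y, (if ty σ lev i = ty σ lev y then f y / #(mem σ lev (ty σ lev y)) else 0) := by
    intro i
    rw [Finset.sum_div, mem, Finset.sum_filter]
    apply Finset.sum_congr rfl
    intro y _
    by_cases h : ty σ lev y = ty σ lev i
    · rw [if_pos h, if_pos h.symm, h]
      rfl
    · rw [if_neg h, if_neg (fun e => h e.symm)]
  simp only [h1]
  rw [Finset.sum_comm]
  apply Finset.sum_congr rfl
  intro y _
  rw [← Finset.sum_filter, Finset.sum_const, nsmul_eq_mul]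
  have hy : y ∈ mem σ lev (ty σ lev y) := by simp [mem]
  have hpos : (0:ℝ) < #(mem σ lev (ty σ lev y)) := by
    have : 0 < #(mem σ lev (ty σ lev y)) := Finset.card_pos.mpr ⟨y, hy⟩
    exact_mod_cast this
  have : (univ.filter fun i => ty σ lev i = ty σ lev y) = mem σ lev (ty σ lev y) := rfl
  rw [this]
  field_simp

theorem avg_cost2_key (hn : 0 < n) (A : Fin n → Fin m → Bool) (σ : Fin n → Fin q)
    (lev : Fin n → Fin L)
    (s : ℕ) (hs : 1 ≤ s) (η : ℝ) (hη : 0 < η)
    (hlev1 : ∀ x y, lev x < lev y → rs A x ≤ rs A y) (i : Fin n) :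
    ∑ ω ∈ Fintype.piFinset (SS σ lev s), (if s ≤ #(mem σ lev (ty σ lev i)) then
      ∑ t1 : Fin q × Fin L, (if s ≤ #(mem σ lev t1) ∧ t1.1 = σ i ∧ t1.2 < lev i then
      (dif A (ω t1) (ω (ty σ lev i)) : ℝ) else 0) else 0)
      ≤ ((L : ℝ) * η + ((∑ y ∈ mem σ lev (ty σ lev i), enRow2 A σ y)
            / #(mem σ lev (ty σ lev i))) / (s * η)) * #(Fintype.piFinset (SS σ lev s)) := by
  classical
  have hspos : (0:ℝ) < s := by exact_mod_cast hs
  have hsumnn : 0 ≤ ∑ y ∈ mem σ lev (ty σ lev i), enRow2 A σ y :=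
    Finset.sum_nonneg (fun y _ => enRow2_nonneg A σ y)
  by_cases hact : s ≤ #(mem σ lev (ty σ lev i))
  · simp only [if_pos hact]
    rw [Finset.sum_comm]
    have hM : (0:ℝ) < #(mem σ lev (ty σ lev i)) := by
      have : 0 < #(mem σ lev (ty σ lev i)) := by omega
      exact_mod_cast this
    calc ∑ t1 : Fin q × Fin L, ∑ ω ∈ Fintype.piFinset (SS σ lev s),
          (if s ≤ #(mem σ lev t1) ∧ t1.1 = σ i ∧ t1.2 < lev i then
            (dif A (ω t1) (ω (ty σ lev i)) : ℝ) else 0)
        ≤ ∑ t1 : Fin q × Fin L, (if t1.1 = (ty σ lev i).1 then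
            (η + Wt A σ lev t1 (ty σ lev i) / (s * η * #(mem σ lev (ty σ lev i))))
              * #(Fintype.piFinset (SS σ lev s)) else 0) := by
          apply Finset.sum_le_sum
          intro t1 _
          have hnn : 0 ≤ (η + Wt A σ lev t1 (ty σ lev i) / (s * η * #(mem σ lev (ty σ lev i))))
              * #(Fintype.piFinset (SS σ lev s)) := by
            have := Wt_nonneg A σ lev t1 (ty σ lev i)
            positivity
          by_cases hc : s ≤ #(mem σ lev t1) ∧ t1.1 = σ i ∧ t1.2 < lev i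
          · simp only [if_pos hc]
            have h1 : t1.1 = (ty σ lev i).1 := hc.2.1
            rw [if_pos h1]
            exact avg_pair hn A σ lev s hs η hη hlev1 t1 (ty σ lev i) hc.2.2 hc.1 hact
          · simp only [if_neg hc, Finset.sum_const_zero]
            split_ifs
            · exact hnn
            · exact le_rfl
      _ = ((L : ℝ) * η + ((∑ y ∈ mem σ lev (ty σ lev i), enRow2 A σ y)
            / #(mem σ lev (ty σ lev i))) / (s * η)) * #(Fintype.piFinset (SS σ lev s)) := by
          have e : ∀ t1 : Fin q × Fin L, (if t1.1 = (ty σ lev i).1 then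
            (η + Wt A σ lev t1 (ty σ lev i) / (s * η * #(mem σ lev (ty σ lev i))))
              * #(Fintype.piFinset (SS σ lev s)) else 0)
              = ((if t1.1 = (ty σ lev i).1 then η else 0)
                + (if t1.1 = (ty σ lev i).1 then Wt A σ lev t1 (ty σ lev i) else 0)
                    / (s * η * #(mem σ lev (ty σ lev i)))) * #(Fintype.piFinset (SS σ lev s)) := by
            intro t1
            split_ifs <;> simp
          simp only [e]
          rw [← Finset.sum_mul, Finset.sum_add_distrib, ← Finset.sum_div, sum_strip_const,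
            sum_Wt_le]
          congr 1
          congr 1
          field_simp
  · simp only [if_neg hact, Finset.sum_const_zero]
    positivity

/-- AVERAGE OF COST 2.  Use `sum_pi_two` (the two types differ since the levels differ).
For `x ∈ mem t1`, `y ∈ mem t`, `t1.2 < t.2`: `rs x ≤ rs y`, so `dif x y ≤ dif y x` (`rs_sub`) and
`dif x y ≤ η + dif x y * dif y x / η`.  Then
`(1/(#mem t1 #mem t)) ∑∑ ≤ η + (1/(s η #mem t)) ∑_{x ∈ mem t1, y ∈ mem t} dif x y * dif y x`;
summing over the `#mem t` rows `i` of type `t`, over the at most `L` types `t1` and over `t`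
gives `L n η + energy/(s η)`. -/
theorem avg_cost2 (hn : 0 < n) (A : Fin n → Fin m → Bool) (σ : Fin n → Fin q) (lev : Fin n → Fin L)
    (s : ℕ) (hs : 1 ≤ s) (η : ℝ) (hη : 0 < η)
    (hlev1 : ∀ x y, lev x < lev y → rs A x ≤ rs A y) :
    ∑ ω ∈ Fintype.piFinset (SS σ lev s), cost2 A σ lev s ω
      ≤ ((L : ℝ) * n * η + (energy A σ : ℝ) / (s * η)) * #(Fintype.piFinset (SS σ lev s)) := by
  classical
  calc ∑ ω ∈ Fintype.piFinset (SS σ lev s), cost2 A σ lev s ω
      = ∑ i, ∑ ω ∈ Fintype.piFinset (SS σ lev s), (if s ≤ #(mem σ lev (ty σ lev i)) then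
      ∑ t1 : Fin q × Fin L, (if s ≤ #(mem σ lev t1) ∧ t1.1 = σ i ∧ t1.2 < lev i then
      (dif A (ω t1) (ω (ty σ lev i)) : ℝ) else 0) else 0) := by
        simp only [cost2]
        rw [Finset.sum_comm]
    _ ≤ ∑ i : Fin n, ((L : ℝ) * η + ((∑ y ∈ mem σ lev (ty σ lev i), enRow2 A σ y)
            / #(mem σ lev (ty σ lev i))) / (s * η)) * #(Fintype.piFinset (SS σ lev s)) :=
        Finset.sum_le_sum (fun i _ => avg_cost2_key hn A σ lev s hs η hη hlev1 i)
    _ = ((L : ℝ) * n * η + (energy A σ : ℝ) / (s * η)) * #(Fintype.piFinset (SS σ lev s)) := by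
        rw [← Finset.sum_mul, Finset.sum_add_distrib, Finset.sum_const, Finset.card_univ,
          Fintype.card_fin, nsmul_eq_mul, ← Finset.sum_div, avg_sum, sum_enRow2]
        ring

end Vale.Agent.Lib.P037
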