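import Vale.Agent.Lib.P037.Types
import Vale.Agent.Lib.P037.ProdAvg

namespace Vale.Agent.Lib.P037
open Finset
variable {n m q L : ℕ}

theorem sum_mem_fiber (σ : Fin n → Fin q) (lev : Fin n → Fin L) (f : Fin n → ℝ) :
    ∑ t : Fin q × Fin L, ∑ x ∈ mem σ lev t, f x = ∑ x, f x := by
  unfold mem
  exact Finset.sum_fiberwise univ (ty σ lev) f

/-- AVERAGE OF COST 3.  `ω` is injective on active types (`omega_mem`), so
`cost3 σ κ (Reps ω) = ∑_{t,t' active} [t.1 < t'.1] κ (ω t) (ω t')`; use `sum_pi_two`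
(`t ≠ t'`), `1/(#mem t #mem t') ≤ 1/s²`, and the sets `mem t` are pairwise disjoint. -/
theorem avg_cost3 (hn : 0 < n) (σ : Fin n → Fin q) (lev : Fin n → Fin L)
    (s : ℕ) (hs : 1 ≤ s) (κ : Fin n → Fin n → ℝ) (hκ : ∀ x y, 0 ≤ κ x y) :
    ∑ ω ∈ Fintype.piFinset (SS σ lev s), cost3 σ κ (Reps σ lev s ω)
      ≤ ((∑ x, ∑ y, κ x y) / (s : ℝ) ^ 2) * #(Fintype.piFinset (SS σ lev s)) := by
  classical
  set Act : Finset (Fin q × Fin L) := univ.filter fun t => s ≤ #(mem σ lev t) with hAct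
  set P := Fintype.piFinset (SS σ lev s) with hP
  have hspos : (0 : ℝ) < s := by exact_mod_cast hs
  have hne : ∀ t, (SS σ lev s t).Nonempty := SS_nonempty hn σ lev s hs
  -- Step 1
  have step1 : ∀ ω ∈ P, cost3 σ κ (Reps σ lev s ω)
      ≤ ∑ t ∈ Act, ∑ t' ∈ Act, if t.1 < t'.1 then κ (ω t) (ω t') else 0 := by
    intro ω hω
    unfold cost3 Reps
    rw [← hAct]
    have hG : ∀ x y : Fin n, 0 ≤ (if σ x < σ y then κ x y else 0) := by
      intro x y
      split_ifs
      · exact hκ x y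
      · exact le_rfl
    calc ∑ x ∈ Act.image ω, ∑ y ∈ Act.image ω, (if σ x < σ y then κ x y else 0)
        ≤ ∑ t ∈ Act, ∑ y ∈ Act.image ω, (if σ (ω t) < σ y then κ (ω t) y else 0) :=
          Finset.sum_image_le_of_nonneg (fun u _ => Finset.sum_nonneg (fun y _ => hG u y))
      _ ≤ ∑ t ∈ Act, ∑ t' ∈ Act, (if σ (ω t) < σ (ω t') then κ (ω t) (ω t') else 0) := by
          apply Finset.sum_le_sum
          intro t _
          exact Finset.sum_image_le_of_nonneg (fun u _ => hG (ω t) u)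
      _ = ∑ t ∈ Act, ∑ t' ∈ Act, if t.1 < t'.1 then κ (ω t) (ω t') else 0 := by
          apply Finset.sum_congr rfl
          intro t ht
          apply Finset.sum_congr rfl
          intro t' ht'
          rw [(omega_mem σ lev s ω hω t (Finset.mem_filter.1 ht).2).1,
            (omega_mem σ lev s ω hω t' (Finset.mem_filter.1 ht').2).1]
  -- Step 2
  have step2 : ∀ t ∈ Act, ∀ t' ∈ Act,
      ∑ ω ∈ P, (if t.1 < t'.1 then κ (ω t) (ω t') else 0)
        ≤ (#P : ℝ) / (s : ℝ) ^ 2 * ∑ x ∈ mem σ lev t, ∑ y ∈ mem σ lev t', κ x y := by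
    intro t ht t' ht'
    have hnn : 0 ≤ ∑ x ∈ mem σ lev t, ∑ y ∈ mem σ lev t', κ x y :=
      Finset.sum_nonneg (fun x _ => Finset.sum_nonneg (fun y _ => hκ x y))
    have a1 : s ≤ #(mem σ lev t) := (Finset.mem_filter.1 ht).2
    have a2 : s ≤ #(mem σ lev t') := (Finset.mem_filter.1 ht').2
    by_cases hlt : t.1 < t'.1
    · simp only [if_pos hlt]
      have hne' : t ≠ t' := by
        intro h
        rw [h] at hlt
        exact lt_irrefl _ hlt
      rw [hP, sum_pi_two (SS σ lev s) hne t t' hne' κ]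
      have e1 : SS σ lev s t = mem σ lev t := by unfold SS; rw [if_pos a1]
      have e2 : SS σ lev s t' = mem σ lev t' := by unfold SS; rw [if_pos a2]
      rw [e1, e2]
      apply mul_le_mul_of_nonneg_right _ hnn
      apply div_le_div_of_nonneg_left (by positivity) (by positivity)
      have b1 : (s : ℝ) ≤ #(mem σ lev t) := by exact_mod_cast a1
      have b2 : (s : ℝ) ≤ #(mem σ lev t') := by exact_mod_cast a2
      nlinarith
    · simp only [if_neg hlt, Finset.sum_const_zero]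
      positivity
  calc ∑ ω ∈ P, cost3 σ κ (Reps σ lev s ω)
      ≤ ∑ ω ∈ P, ∑ t ∈ Act, ∑ t' ∈ Act, (if t.1 < t'.1 then κ (ω t) (ω t') else 0) :=
        Finset.sum_le_sum step1
    _ = ∑ t ∈ Act, ∑ t' ∈ Act, ∑ ω ∈ P, (if t.1 < t'.1 then κ (ω t) (ω t') else 0) := by
        rw [Finset.sum_comm]
        apply Finset.sum_congr rfl
        intro t _
        rw [Finset.sum_comm]
    _ ≤ ∑ t ∈ Act, ∑ t' ∈ Act,
          (#P : ℝ) / (s : ℝ) ^ 2 * ∑ x ∈ mem σ lev t, ∑ y ∈ mem σ lev t', κ x y :=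
        Finset.sum_le_sum (fun t ht => Finset.sum_le_sum (fun t' ht' => step2 t ht t' ht'))
    _ ≤ ∑ t : Fin q × Fin L, ∑ t' : Fin q × Fin L,
          (#P : ℝ) / (s : ℝ) ^ 2 * ∑ x ∈ mem σ lev t, ∑ y ∈ mem σ lev t', κ x y := by
        have hnn : ∀ t t' : Fin q × Fin L,
            0 ≤ (#P : ℝ) / (s : ℝ) ^ 2 * ∑ x ∈ mem σ lev t, ∑ y ∈ mem σ lev t', κ x y := by
          intro t t'
          have : 0 ≤ ∑ x ∈ mem σ lev t, ∑ y ∈ mem σ lev t', κ x y :=
            Finset.sum_nonneg (fun x _ => Finset.sum_nonneg (fun y _ => hκ x y))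
          positivity
        calc _ ≤ ∑ t ∈ Act, ∑ t' : Fin q × Fin L,
              (#P : ℝ) / (s : ℝ) ^ 2 * ∑ x ∈ mem σ lev t, ∑ y ∈ mem σ lev t', κ x y := by
              apply Finset.sum_le_sum
              intro t _
              exact Finset.sum_le_sum_of_subset_of_nonneg (Finset.subset_univ _)
                (fun t' _ _ => hnn t t')
          _ ≤ _ := Finset.sum_le_sum_of_subset_of_nonneg (Finset.subset_univ _)
                (fun t _ _ => Finset.sum_nonneg (fun t' _ => hnn t t'))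
    _ = ((∑ x, ∑ y, κ x y) / (s : ℝ) ^ 2) * #P := by
        simp_rw [← Finset.mul_sum]
        have e : ∑ t : Fin q × Fin L, ∑ t' : Fin q × Fin L,
            ∑ x ∈ mem σ lev t, ∑ y ∈ mem σ lev t', κ x y = ∑ x, ∑ y, κ x y := by
          have e1 : ∀ t : Fin q × Fin L, ∑ t' : Fin q × Fin L,
              ∑ x ∈ mem σ lev t, ∑ y ∈ mem σ lev t', κ x y
              = ∑ x ∈ mem σ lev t, ∑ y, κ x y := by
            intro t
            rw [Finset.sum_comm]
            apply Finset.sum_congr rfl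
            intro x _
            exact sum_mem_fiber σ lev (fun y => κ x y)
          simp_rw [e1]
          exact sum_mem_fiber σ lev (fun x => ∑ y, κ x y)
        rw [e]
        ring

end Vale.Agent.Lib.P037
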