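import Vale.Agent.Lib.P037.Types

namespace Vale.Agent.Lib.P037
open Finset
variable {n m : ℕ}

/-- the strip function `i ↦ ⌊i q / n⌋` -/
def strip (n q : ℕ) (hn : 0 < n) (hq : 0 < q) (i : Fin n) : Fin q :=
  ⟨i.val * q / n, by
    rw [Nat.div_lt_iff_lt_mul hn]
    calc i.val * q < n * q := Nat.mul_lt_mul_of_pos_right i.isLt hq
      _ = q * n := Nat.mul_comm _ _⟩

private theorem lt_succ_div_mul (a b : ℕ) (hb : 0 < b) : a < (a / b + 1) * b :=
  (Nat.div_lt_iff_lt_mul hb).mp (Nat.lt_succ_self _)

theorem strip_mono (n q : ℕ) (hn : 0 < n) (hq : 0 < q) : Monotone (strip n q hn hq) := by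
  intro i j hij
  show i.val * q / n ≤ j.val * q / n
  exact Nat.div_le_div_right (Nat.mul_le_mul_right q hij)

theorem strip_fiber (n q : ℕ) (hn : 0 < n) (hq : 0 < q) (a : Fin q) :
    #{i | strip n q hn hq i = a} ≤ n / q + 1 := by
  classical
  -- the fibre injects into the interval `[⌈a n / q⌉, ⌈a n / q⌉ + n / q]`
  set lo : ℕ := (a.val * n + q - 1) / q with hlo
  have hsub : (({i | strip n q hn hq i = a} : Finset (Fin n)).image fun i : Fin n => i.val) ⊆
      Finset.Icc lo (lo + n / q) := by
    intro v hv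
    obtain ⟨i, hi, rfl⟩ := Finset.mem_image.mp hv
    have hi' : strip n q hn hq i = a := by simpa using hi
    have h1 : i.val * q / n = a.val := congrArg Fin.val hi'
    have h2 : a.val * n ≤ i.val * q := by
      have := Nat.div_mul_le_self (i.val * q) n
      rw [h1] at this
      exact this
    have h3 : i.val * q < (a.val + 1) * n := by
      have := Nat.lt_succ_iff.mpr (le_refl (i.val * q / n))
      rw [Nat.div_lt_iff_lt_mul hn] at this
      rw [h1] at this
      exact this
    rw [Finset.mem_Icc]
    constructor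
    · -- lo ≤ i
      rw [hlo]
      have : a.val * n + q - 1 < (i.val + 1) * q := by
        have : (i.val + 1) * q = i.val * q + q := by ring
        omega
      have h4 : (a.val * n + q - 1) / q < i.val + 1 := by
        rw [Nat.div_lt_iff_lt_mul hq]
        exact this
      omega
    · -- i ≤ lo + n / q
      by_contra hcon
      have h5 : lo + n / q + 1 ≤ i.val := not_le.mp hcon
      have h6 : a.val * n ≤ lo * q := by
        have h7 : a.val * n + q - 1 < (lo + 1) * q := by
          rw [hlo]
          exact lt_succ_div_mul _ _ hq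
        have : (lo + 1) * q = lo * q + q := by ring
        omega
      have h8 : n < (n / q + 1) * q := lt_succ_div_mul _ _ hq
      have h9 : (lo + n / q + 1) * q ≤ i.val * q := Nat.mul_le_mul_right q h5
      have h10 : (lo + n / q + 1) * q = lo * q + (n / q + 1) * q := by ring
      have h11 : (a.val + 1) * n = a.val * n + n := by ring
      omega
  calc #{i | strip n q hn hq i = a}
      = #(({i | strip n q hn hq i = a} : Finset (Fin n)).image fun i : Fin n => i.val) := by
        rw [Finset.card_image_of_injective _ Fin.val_injective]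
    _ ≤ #(Finset.Icc lo (lo + n / q)) := Finset.card_le_card hsub
    _ = n / q + 1 := by
        rw [Nat.card_Icc]
        generalize n / q = t
        omega

theorem rs_le (A : Fin n → Fin m → Bool) (x : Fin n) : rs A x ≤ m := by
  unfold rs
  calc #{c : Fin m | A x c = true} ≤ #(Finset.univ : Finset (Fin m)) := Finset.card_filter_le _ _
    _ = m := by simp

/-- the level function `x ↦ ⌊|R_x| L / (m+1)⌋` -/
def level (L : ℕ) (hL : 0 < L) (A : Fin n → Fin m → Bool) (x : Fin n) : Fin L :=
  ⟨rs A x * L / (m + 1), by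
    rw [Nat.div_lt_iff_lt_mul (Nat.succ_pos m)]
    have h := rs_le A x
    calc rs A x * L < (m + 1) * L := Nat.mul_lt_mul_of_pos_right (by omega) hL
      _ = L * (m + 1) := Nat.mul_comm _ _⟩

theorem level_lt (L : ℕ) (hL : 0 < L) (A : Fin n → Fin m → Bool) (x y : Fin n)
    (h : level L hL A x < level L hL A y) : rs A x ≤ rs A y := by
  by_contra hcon
  replace hcon := not_le.mp hcon
  have h1 : rs A x * L / (m + 1) < rs A y * L / (m + 1) := h
  have h2 : rs A y * L / (m + 1) ≤ rs A x * L / (m + 1) :=
    Nat.div_le_div_right (Nat.mul_le_mul_right L hcon.le)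
  omega

theorem level_eq (L : ℕ) (hL : 0 < L) (A : Fin n → Fin m → Bool) (x y : Fin n)
    (h : level L hL A x = level L hL A y) : |(rs A x : ℝ) - rs A y| ≤ ((m : ℝ) + 1) / L := by
  have h1 : rs A x * L / (m + 1) = rs A y * L / (m + 1) := congrArg Fin.val h
  set k : ℕ := rs A x * L / (m + 1) with hk
  have key : ∀ u : ℕ, u * L / (m + 1) = k → k * (m + 1) ≤ u * L ∧ u * L < (k + 1) * (m + 1) := by
    intro u hu
    constructor
    · rw [← hu]; exact Nat.div_mul_le_self _ _
    · rw [← hu]; exact lt_succ_div_mul _ _ (Nat.succ_pos m)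
  obtain ⟨a1, a2⟩ := key (rs A x) hk.symm
  obtain ⟨b1, b2⟩ := key (rs A y) h1.symm
  have hLr : (0 : ℝ) < L := by exact_mod_cast hL
  rw [le_div_iff₀ hLr]
  have a1' : (k : ℝ) * (m + 1) ≤ rs A x * L := by exact_mod_cast a1
  have a2' : (rs A x : ℝ) * L < (k + 1) * (m + 1) := by exact_mod_cast a2
  have b1' : (k : ℝ) * (m + 1) ≤ rs A y * L := by exact_mod_cast b1
  have b2' : (rs A y : ℝ) * L < (k + 1) * (m + 1) := by exact_mod_cast b2
  have : |(rs A x : ℝ) - rs A y| * L = |((rs A x : ℝ) * L - rs A y * L)| := by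
    rw [← sub_mul, abs_mul, abs_of_pos hLr]
  rw [this, abs_le]
  constructor <;> nlinarith

end Vale.Agent.Lib.P037
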