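import Vale.Agent.Lib.P037.Types

namespace Vale.Agent.Lib.P037
open Finset
variable {n m q L q' L' : ℕ}

theorem cntI_tr (A : Fin n → Fin m → Bool) : cntI (tr A) = cntI A := by
  unfold cntI tr
  apply Finset.card_nbij' (fun p => (p.2, p.1)) (fun p => (p.2, p.1))
  · intro p hp
    simp only [coe_filter, mem_univ, true_and, Set.mem_ofPred_eq] at hp ⊢
    tauto
  · intro p hp
    simp only [coe_filter, mem_univ, true_and, Set.mem_ofPred_eq] at hp ⊢
    tauto
  · intro p _; rfl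
  · intro p _; rfl

theorem hd_tr (A B : Fin n → Fin m → Bool) : hd (tr A) (tr B) = hd A B := by
  unfold hd tr
  apply Finset.card_nbij' (fun p => (p.2, p.1)) (fun p => (p.2, p.1))
  · intro p hp
    simp only [coe_filter, mem_univ, true_and, Set.mem_ofPred_eq] at hp ⊢
    exact hp
  · intro p hp
    simp only [coe_filter, mem_univ, true_and, Set.mem_ofPred_eq] at hp ⊢
    exact hp
  · intro p _; rfl
  · intro p _; rfl

theorem hd_triangle (A B C : Fin n → Fin m → Bool) : hd A C ≤ hd A B + hd B C := by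
  unfold hd
  refine le_trans (Finset.card_le_card ?_) (Finset.card_union_le _ _)
  intro p hp
  simp only [mem_filter, mem_univ, true_and, mem_union] at hp ⊢
  by_contra h
  push Not at h
  exact hp (h.1.trans h.2)

theorem cntI_eq_zero_iff (A : Fin n → Fin m → Bool) : cntI A = 0 ↔ IFree A := by
  unfold cntI IFree
  rw [Finset.card_eq_zero, Finset.filter_eq_empty_iff]
  constructor
  · intro h x y c d hxy hcd hc
    exact h (Finset.mem_univ ((x, y), (c, d))) ⟨hxy, hcd, hc⟩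
  · intro h p _ hp
    exact h p.1.1 p.1.2 p.2.1 p.2.2 hp.1 hp.2.1 hp.2.2

theorem cntI_eq_sum_cp (A : Fin n → Fin m → Bool) :
    cntI A = ∑ x, ∑ y, if x < y then cp A x y else 0 := by
  unfold cntI cp
  rw [Finset.card_filter, Fintype.sum_prod_type, Fintype.sum_prod_type]
  refine Finset.sum_congr rfl fun x _ => Finset.sum_congr rfl fun y _ => ?_
  rw [Finset.card_filter]
  by_cases h : x < y
  · simp [h]
  · simp [h]

theorem round_true (A : Fin n → Fin m → Bool) (σ : Fin n → Fin q) (lev : Fin n → Fin L)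
    (Rep : Finset (Fin n)) (i : Fin n) (c : Fin m) :
    roundRows A σ lev Rep i c = true ↔ ∃ x ∈ Rep, σ x = σ i ∧ lev x ≤ lev i ∧ A x c = true := by
  simp [roundRows]

theorem round_false (A : Fin n → Fin m → Bool) (σ : Fin n → Fin q) (lev : Fin n → Fin L)
    (Rep : Finset (Fin n)) (i : Fin n) (c : Fin m) :
    roundRows A σ lev Rep i c = false ↔
      ∀ x ∈ Rep, σ x = σ i → lev x ≤ lev i → A x c = false := by
  simp [roundRows]

/-- a copy of the values of `I` in the rounded matrix lifts to representatives -/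
theorem copy_lift (A : Fin n → Fin m → Bool) (σ : Fin n → Fin q) (lev : Fin n → Fin L)
    (Rep : Finset (Fin n)) (i i' : Fin n) (c d : Fin m)
    (h1 : roundRows A σ lev Rep i c = true) (h2 : roundRows A σ lev Rep i d = false)
    (h3 : roundRows A σ lev Rep i' c = false) (h4 : roundRows A σ lev Rep i' d = true) :
    σ i ≠ σ i' ∧ ∃ x ∈ Rep, ∃ y ∈ Rep, σ x = σ i ∧ σ y = σ i' ∧
      A x c = true ∧ A x d = false ∧ A y c = false ∧ A y d = true := by
  rw [round_true] at h1 h4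
  rw [round_false] at h2 h3
  obtain ⟨x, hx, hxs, hxl, hxc⟩ := h1
  obtain ⟨y, hy, hys, hyl, hyd⟩ := h4
  refine ⟨?_, x, hx, y, hy, hxs, hys, hxc, h2 x hx hxs hxl, h3 y hy hys hyl, hyd⟩
  intro hs
  rcases le_total (lev i) (lev i') with hl | hl
  · have := h3 x hx (hxs.trans hs) (le_trans hxl hl)
    rw [hxc] at this
    exact absurd this (by simp)
  · have := h2 y hy (hys.trans hs.symm) (le_trans hyl hl)
    rw [hyd] at this
    exact absurd this (by simp)

theorem lt_of_strip_lt {N Q : ℕ} (σ : Fin N → Fin Q) (hσ : Monotone σ) {x y : Fin N}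
    (h : σ x < σ y) : x < y := by
  by_contra hc
  push Not at hc
  exact absurd (hσ hc) (not_le.mpr h)

theorem cost3_eq {N Q : ℕ} (σ : Fin N → Fin Q) (κ : Fin N → Fin N → ℝ) (Rep : Finset (Fin N)) :
    cost3 σ κ Rep = ∑ p ∈ (Rep ×ˢ Rep).filter (fun p => σ p.1 < σ p.2), κ p.1 p.2 := by
  unfold cost3
  rw [Finset.sum_filter, Finset.sum_product]

/-- copies of the rounded matrix come from copies of `A` on representative rows;
each `(x,y,c,d)` is hit by at most `w²` copies `(i,i',c,d)` (`σ i = σ x`, `σ i' = σ y`).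
Rows of the rounded matrix in the same strip are nested, so `σ i < σ i'`. -/
theorem cntI_round_le (A : Fin n → Fin m → Bool) (σ : Fin n → Fin q) (lev : Fin n → Fin L)
    (w : ℕ) (hσ : Monotone σ) (hw : ∀ a, #{i | σ i = a} ≤ w) (Rep : Finset (Fin n)) :
    (cntI (roundRows A σ lev Rep) : ℝ) ≤ (w : ℝ) ^ 2 * cost3 σ (kap1 A) Rep := by
  classical
  rw [cost3_eq]
  set P : Finset (Fin n × Fin n) := (Rep ×ˢ Rep).filter (fun p => σ p.1 < σ p.2) with hP
  let fib : Fin n → Finset (Fin n) := fun x => univ.filter (fun i => σ i = σ x)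
  let cps : Fin n → Fin n → Finset (Fin m × Fin m) := fun x y =>
    univ.filter (fun p => p.1 < p.2 ∧ A x p.1 = true ∧ A x p.2 = false ∧ A y p.1 = false ∧
      A y p.2 = true)
  have hsub : (univ.filter (fun p : (Fin n × Fin n) × (Fin m × Fin m) =>
      p.1.1 < p.1.2 ∧ p.2.1 < p.2.2 ∧
      roundRows A σ lev Rep p.1.1 p.2.1 = true ∧ roundRows A σ lev Rep p.1.1 p.2.2 = false ∧
      roundRows A σ lev Rep p.1.2 p.2.1 = false ∧ roundRows A σ lev Rep p.1.2 p.2.2 = true))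
      ⊆ P.biUnion (fun p => (fib p.1 ×ˢ fib p.2) ×ˢ cps p.1 p.2) := by
    intro p hp
    simp only [mem_filter, mem_univ, true_and] at hp
    obtain ⟨hlt, hcd, h1, h2, h3, h4⟩ := hp
    obtain ⟨hne, x, hx, y, hy, hxs, hys, a1, a2, a3, a4⟩ :=
      copy_lift A σ lev Rep _ _ _ _ h1 h2 h3 h4
    have hslt : σ p.1.1 < σ p.1.2 := lt_of_le_of_ne (hσ hlt.le) hne
    rw [Finset.mem_biUnion]
    refine ⟨(x, y), ?_, ?_⟩
    · rw [hP, mem_filter, mem_product]
      exact ⟨⟨hx, hy⟩, by simp only [hxs, hys]; exact hslt⟩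
    · simp only [mem_product, fib, cps, mem_filter, mem_univ, true_and]
      exact ⟨⟨hxs.symm, hys.symm⟩, hcd, a1, a2, a3, a4⟩
  have hcard : cntI (roundRows A σ lev Rep) ≤ ∑ p ∈ P, w * w * cp A p.1 p.2 := by
    unfold cntI
    refine le_trans (Finset.card_le_card hsub) (le_trans Finset.card_biUnion_le ?_)
    refine Finset.sum_le_sum fun p _ => ?_
    rw [Finset.card_product, Finset.card_product]
    have h1 : #(fib p.1) ≤ w := hw (σ p.1)
    have h2 : #(fib p.2) ≤ w := hw (σ p.2)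
    have h3 : #(cps p.1 p.2) = cp A p.1 p.2 := rfl
    rw [h3]
    exact Nat.mul_le_mul_right _ (Nat.mul_le_mul h1 h2)
  have hk : ∀ p ∈ P, kap1 A p.1 p.2 = (cp A p.1 p.2 : ℝ) := by
    intro p hp
    rw [hP, mem_filter] at hp
    unfold kap1
    rw [if_pos (lt_of_strip_lt σ hσ hp.2)]
  rw [Finset.sum_congr rfl hk, Finset.mul_sum]
  calc (cntI (roundRows A σ lev Rep) : ℝ) ≤ ((∑ p ∈ P, w * w * cp A p.1 p.2 : ℕ) : ℝ) := by
        exact_mod_cast hcard
    _ = ∑ p ∈ P, (w : ℝ) ^ 2 * (cp A p.1 p.2 : ℝ) := by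
        push_cast
        refine Finset.sum_congr rfl fun p _ => ?_
        ring

theorem kap1_nonneg (A : Fin n → Fin m → Bool) (x y : Fin n) : 0 ≤ kap1 A x y := by
  unfold kap1; split_ifs <;> positivity

theorem kap2_nonneg (A : Fin n → Fin m → Bool) (σ : Fin n → Fin q) (Rep : Finset (Fin n))
    (z z' : Fin m) : 0 ≤ kap2 A σ Rep z z' := by
  unfold kap2; split_ifs <;> positivity

theorem sum_kap1 (A : Fin n → Fin m → Bool) : ∑ x, ∑ y, kap1 A x y = (cntI A : ℝ) := by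
  rw [cntI_eq_sum_cp]
  push_cast
  rfl

/-- every pair `(z,z')` with `kap2 = 1` is counted in some `cp A x y`, `x,y ∈ Rep`, `σ x < σ y`
(and `σ x < σ y → x < y` by monotonicity). -/
theorem sum_kap2_le (A : Fin n → Fin m → Bool) (σ : Fin n → Fin q) (hσ : Monotone σ)
    (Rep : Finset (Fin n)) :
    ∑ z, ∑ z', kap2 A σ Rep z z' ≤ cost3 σ (kap1 A) Rep := by
  classical
  rw [cost3_eq]
  set P : Finset (Fin n × Fin n) := (Rep ×ˢ Rep).filter (fun p => σ p.1 < σ p.2) with hP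
  let cps : Fin n → Fin n → Finset (Fin m × Fin m) := fun x y =>
    univ.filter (fun p => p.1 < p.2 ∧ A x p.1 = true ∧ A x p.2 = false ∧ A y p.1 = false ∧
      A y p.2 = true)
  have hk : ∀ p ∈ P, kap1 A p.1 p.2 = (cp A p.1 p.2 : ℝ) := by
    intro p hp
    rw [hP, mem_filter] at hp
    unfold kap1
    rw [if_pos (lt_of_strip_lt σ hσ hp.2)]
  rw [Finset.sum_congr rfl hk]
  have h1 : ∑ z, ∑ z', kap2 A σ Rep z z'
      = (#(univ.filter (fun p : Fin m × Fin m => ∃ x ∈ Rep, ∃ y ∈ Rep, σ x < σ y ∧ p.1 < p.2 ∧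
      A x p.1 = true ∧ A x p.2 = false ∧ A y p.1 = false ∧ A y p.2 = true)) : ℝ) := by
    rw [Finset.card_filter, Fintype.sum_prod_type]
    push_cast
    rfl
  rw [h1]
  have hsub : (univ.filter (fun p : Fin m × Fin m => ∃ x ∈ Rep, ∃ y ∈ Rep, σ x < σ y ∧
      p.1 < p.2 ∧ A x p.1 = true ∧ A x p.2 = false ∧ A y p.1 = false ∧ A y p.2 = true))
      ⊆ P.biUnion (fun p => cps p.1 p.2) := by
    intro p hp
    simp only [mem_filter, mem_univ, true_and] at hp
    obtain ⟨x, hx, y, hy, hs, hlt, a1, a2, a3, a4⟩ := hp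
    rw [Finset.mem_biUnion]
    refine ⟨(x, y), ?_, ?_⟩
    · rw [hP, mem_filter, mem_product]
      exact ⟨⟨hx, hy⟩, hs⟩
    · simp only [cps, mem_filter, mem_univ, true_and]
      exact ⟨hlt, a1, a2, a3, a4⟩
  have hcard := le_trans (Finset.card_le_card hsub) Finset.card_biUnion_le
  have h3 : ∀ p ∈ P, #(cps p.1 p.2) = cp A p.1 p.2 := fun p _ => rfl
  rw [Finset.sum_congr rfl h3] at hcard
  exact_mod_cast hcard

/-- if the (0/1-valued) sum is `< 1`, all terms vanish. -/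
theorem kap2_zero (A : Fin n → Fin m → Bool) (σ : Fin n → Fin q) (σ' : Fin m → Fin q')
    (hσ' : Monotone σ') (Rep : Finset (Fin n)) (Rep' : Finset (Fin m))
    (h : cost3 σ' (kap2 A σ Rep) Rep' < 1) :
    ∀ x ∈ Rep, ∀ y ∈ Rep, ∀ z ∈ Rep', ∀ z' ∈ Rep', σ x < σ y → σ' z < σ' z' →
      ¬ (A x z = true ∧ A x z' = false ∧ A y z = false ∧ A y z' = true) := by
  classical
  intro x hx y hy z hz z' hz' hs hs' hc
  rw [cost3_eq] at h
  have hmem : (z, z') ∈ (Rep' ×ˢ Rep').filter (fun p => σ' p.1 < σ' p.2) := by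
    rw [mem_filter, mem_product]
    exact ⟨⟨hz, hz'⟩, hs'⟩
  have hone : kap2 A σ Rep z z' = 1 := by
    unfold kap2
    rw [if_pos]
    exact ⟨x, hx, y, hy, hs, lt_of_strip_lt σ' hσ' hs', hc⟩
  have hge : kap2 A σ Rep z z' ≤
      ∑ p ∈ (Rep' ×ˢ Rep').filter (fun p => σ' p.1 < σ' p.2), kap2 A σ Rep p.1 p.2 :=
    Finset.single_le_sum (f := fun p : Fin m × Fin m => kap2 A σ Rep p.1 p.2)
      (fun p _ => kap2_nonneg A σ Rep p.1 p.2) hmem
  rw [hone] at hge
  linarith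

/-- EXACTNESS. -/
theorem IFree_final (A : Fin n → Fin m → Bool) (σ : Fin n → Fin q) (lev : Fin n → Fin L)
    (σ' : Fin m → Fin q') (lev' : Fin m → Fin L') (hσ : Monotone σ) (hσ' : Monotone σ')
    (Rep : Finset (Fin n)) (Rep' : Finset (Fin m))
    (h : ∀ x ∈ Rep, ∀ y ∈ Rep, ∀ z ∈ Rep', ∀ z' ∈ Rep', σ x < σ y → σ' z < σ' z' →
      ¬ (A x z = true ∧ A x z' = false ∧ A y z = false ∧ A y z' = true)) :
    IFree (tr (roundRows (tr (roundRows A σ lev Rep)) σ' lev' Rep')) := by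
  intro x y c d hxy hcd hc
  obtain ⟨b1, b2, b3, b4⟩ := hc
  simp only [tr] at b1 b2 b3 b4
  obtain ⟨hne', z, hz, z', hz', hzs, hzs', m1, m2, m3, m4⟩ :=
    copy_lift (tr (roundRows A σ lev Rep)) σ' lev' Rep' c d x y b1 b3 b2 b4
  simp only [tr] at m1 m2 m3 m4
  obtain ⟨hne, x0, hx0, y0, hy0, hxs, hys, a1, a2, a3, a4⟩ :=
    copy_lift A σ lev Rep x y z z' m1 m3 m2 m4
  have hs : σ x0 < σ y0 := by
    rw [hxs, hys]; exact lt_of_le_of_ne (hσ hxy.le) hne
  have hs' : σ' z < σ' z' := by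
    rw [hzs, hzs']; exact lt_of_le_of_ne (hσ' hcd.le) hne'
  exact h x0 hx0 y0 hy0 z hz z' hz' hs hs' ⟨a1, a2, a3, a4⟩

end Vale.Agent.Lib.P037
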