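import Vale.Agent.Lib.P037.RowLemma
import Vale.Agent.Lib.P037.Struct
import Vale.Agent.Lib.P037.StripLevel

namespace Vale.Agent.Lib.P037
open Finset
variable {n : ℕ}

/-- error term of the row lemma for square matrices -/
noncomputable def Err (n q L w s : ℕ) (η N : ℝ) : ℝ :=
  (n : ℝ) * (q * L * s) + n * (((n : ℝ) + 1) / L + 2 * η) + L * n * η
    + 3 * (2 * (n : ℝ) ^ 2 * w ^ 2 + 2 * N) / (s * η)

theorem Err_mono (n q L w s : ℕ) (η N N' : ℝ) (hs : 1 ≤ s) (hη : 0 < η) (h : N ≤ N') :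
    Err n q L w s η N ≤ Err n q L w s η N' := by
  unfold Err
  have hsη : 0 < (s : ℝ) * η := by
    have : (0 : ℝ) < s := by exact_mod_cast hs
    positivity
  have : 3 * (2 * (n : ℝ) ^ 2 * w ^ 2 + 2 * N) / (s * η)
      ≤ 3 * (2 * (n : ℝ) ^ 2 * w ^ 2 + 2 * N') / (s * η) := by
    apply div_le_div_of_nonneg_right _ hsη.le
    linarith
  linarith

theorem cost3_nonneg {m q : ℕ} (σ : Fin m → Fin q) (κ : Fin m → Fin m → ℝ) (hκ : ∀ x y, 0 ≤ κ x y)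
    (Rep : Finset (Fin m)) : 0 ≤ cost3 σ κ Rep := by
  unfold cost3
  apply Finset.sum_nonneg; intro x _
  apply Finset.sum_nonneg; intro y _
  split_ifs
  · exact hκ x y
  · exact le_rfl

/-- TWO-STEP CONSTRUCTION, abstract parameters. -/
theorem two_step (hn : 0 < n) (A : Fin n → Fin n → Bool) (q L s : ℕ) (hq : 0 < q) (hL : 0 < L)
    (hs : 1 ≤ s) (η lam1 lam2 : ℝ) (hη : 0 < η) (hlam1 : 0 < lam1) (hlam2 : 0 < lam2)
    (X1 : ℝ) (hX1 : Err n q L (n / q + 1) s η (cntI A) + lam1 * ((cntI A : ℝ) / (s : ℝ) ^ 2) ≤ X1)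
    (X2 : ℝ) (hX2 : Err n q L (n / q + 1) s η (((n / q + 1 : ℕ) : ℝ) ^ 2 * (X1 / lam1))
        + lam2 * ((X1 / lam1) / (s : ℝ) ^ 2) ≤ X2)
    (hfin : X2 < lam2) :
    ∃ B : Fin n → Fin n → Bool, IFree B ∧ (hd A B : ℝ) ≤ X1 + X2 := by
  classical
  set σ := strip n q hn hq with hσdef
  have hσ : Monotone σ := strip_mono n q hn hq
  have hw : ∀ a, #{i | σ i = a} ≤ n / q + 1 := strip_fiber n q hn hq
  have hμ : (0 : ℝ) ≤ ((n : ℝ) + 1) / L := by positivity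
  have hs0 : (0 : ℝ) < s := by exact_mod_cast hs
  -- step 1
  obtain ⟨Rep1, h1⟩ := row_lemma hn A σ (level L hL A) (n / q + 1) s (((n : ℝ) + 1) / L) η lam1 hσ hw
    (level_lt L hL A) (level_eq L hL A) hs hμ hη hlam1.le (kap1 A) (kap1_nonneg A)
  rw [sum_kap1] at h1
  set M1 := roundRows A σ (level L hL A) Rep1 with hM1
  have hc1 : 0 ≤ cost3 σ (kap1 A) Rep1 := cost3_nonneg σ _ (kap1_nonneg A) _
  have h1' : (hd A M1 : ℝ) + lam1 * cost3 σ (kap1 A) Rep1 ≤ X1 := by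
    refine h1.trans (le_trans (le_of_eq ?_) hX1)
    unfold Err
    rfl
  have hdA : (hd A M1 : ℝ) ≤ X1 := by nlinarith
  have hd0 : (0 : ℝ) ≤ hd A M1 := Nat.cast_nonneg _
  have hcost : cost3 σ (kap1 A) Rep1 ≤ X1 / lam1 := by
    rw [le_div_iff₀ hlam1]; nlinarith
  -- step 2
  have hN' : (cntI (tr M1) : ℝ) ≤ ((n / q + 1 : ℕ) : ℝ) ^ 2 * (X1 / lam1) := by
    rw [cntI_tr]
    refine (cntI_round_le A σ (level L hL A) (n / q + 1) hσ hw Rep1).trans ?_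
    apply mul_le_mul_of_nonneg_left hcost (by positivity)
  obtain ⟨Rep2, h2⟩ := row_lemma hn (tr M1) σ (level L hL (tr M1)) (n / q + 1) s (((n : ℝ) + 1) / L) η
    lam2 hσ hw (level_lt L hL (tr M1)) (level_eq L hL (tr M1)) hs hμ hη hlam2.le
    (kap2 A σ Rep1) (kap2_nonneg A σ Rep1)
  have hk2 : ∑ z, ∑ z', kap2 A σ Rep1 z z' ≤ X1 / lam1 := (sum_kap2_le A σ hσ Rep1).trans hcost
  set B' := roundRows (tr M1) σ (level L hL (tr M1)) Rep2 with hB'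
  have hc2 : 0 ≤ cost3 σ (kap2 A σ Rep1) Rep2 := cost3_nonneg σ _ (kap2_nonneg A σ Rep1) _
  have h2' : (hd (tr M1) B' : ℝ) + lam2 * cost3 σ (kap2 A σ Rep1) Rep2 ≤ X2 := by
    refine h2.trans (le_trans ?_ hX2)
    have e1 := Err_mono n q L (n / q + 1) s η _ _ hs hη hN'
    have e2 : lam2 * ((∑ z, ∑ z', kap2 A σ Rep1 z z') / (s : ℝ) ^ 2)
        ≤ lam2 * ((X1 / lam1) / (s : ℝ) ^ 2) := by
      apply mul_le_mul_of_nonneg_left _ hlam2.le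
      apply div_le_div_of_nonneg_right hk2 (by positivity)
    unfold Err at e1 ⊢
    linarith
  have hd2 : (0 : ℝ) ≤ hd (tr M1) B' := Nat.cast_nonneg _
  have hlt : cost3 σ (kap2 A σ Rep1) Rep2 < 1 := by
    by_contra hcon
    push Not at hcon
    nlinarith
  refine ⟨tr B', IFree_final A σ (level L hL A) σ (level L hL (tr M1)) hσ hσ Rep1 Rep2
    (kap2_zero A σ σ hσ Rep1 Rep2 hlt), ?_⟩
  have htri := hd_triangle A M1 (tr B')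
  have heq : hd M1 (tr B') = hd (tr M1) B' := by
    have := hd_tr M1 (tr B')
    rw [← this]
    rfl
  have : (hd A (tr B') : ℝ) ≤ hd A M1 + hd (tr M1) B' := by
    rw [← heq]; exact_mod_cast htri
  nlinarith

/-- pure real inequality behind `Err ≤ 5T` -/
theorem err_real (x K S W N η : ℝ) (hK : 1 ≤ K) (hx : 1 ≤ x)
    (hS1 : S * (2 ^ 39 * K ^ 7) ≤ x) (hS2 : x ≤ 2 * S * (2 ^ 39 * K ^ 7))
    (hW0 : 0 ≤ W) (hW : W * (2 ^ 29 * K ^ 5) ≤ x)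
    (hη : η = x / (16 * K * (32 * K + 2)))
    (hN : N * (2 ^ 57 * K ^ 10) ≤ x ^ 4) :
    x * ((2 ^ 30 * K ^ 5) * (32 * K) * S) + x * ((x + 1) / (32 * K) + 2 * η) + (32 * K) * x * η
      + 3 * (2 * x ^ 2 * W ^ 2 + 2 * N) / (S * η) ≤ 5 * (x ^ 2 / (16 * K)) := by
  have hK0 : 0 < K := by linarith
  have hx0 : 0 < x := by linarith
  have hS0 : 0 < S := by
    by_contra h
    push Not at h
    have : 2 * S * (2 ^ 39 * K ^ 7) ≤ 0 := by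
      have : 0 ≤ (2 ^ 39 * K ^ 7) := by positivity
      nlinarith
    linarith
  have hη0 : 0 < η := by rw [hη]; positivity
  -- (a)
  have ha : x * ((2 ^ 30 * K ^ 5) * (32 * K) * S) ≤ x ^ 2 / (16 * K) := by
    rw [le_div_iff₀ (by positivity)]
    have := mul_le_mul_of_nonneg_left hS1 hx0.le
    calc x * ((2 ^ 30 * K ^ 5) * (32 * K) * S) * (16 * K) = x * (S * (2 ^ 39 * K ^ 7)) := by ring
      _ ≤ x * x := this
      _ = x ^ 2 := by ring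
  -- (b)
  have hb : x * ((x + 1) / (32 * K)) ≤ x ^ 2 / (16 * K) := by
    rw [← mul_div_assoc, div_le_div_iff₀ (by positivity) (by positivity)]
    have : x * (x + 1) ≤ x * (2 * x) := mul_le_mul_of_nonneg_left (by linarith) hx0.le
    nlinarith [mul_le_mul_of_nonneg_right this (by positivity : (0:ℝ) ≤ 16 * K)]
  -- (c)
  have hc : x * (2 * η) + (32 * K) * x * η = x ^ 2 / (16 * K) := by
    rw [hη]; field_simp; ring
  -- (d)
  have hSl : x / (2 ^ 40 * K ^ 7) ≤ S := by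
    rw [div_le_iff₀ (by positivity)]
    calc x ≤ 2 * S * (2 ^ 39 * K ^ 7) := hS2
      _ = S * (2 ^ 40 * K ^ 7) := by ring
  have hηl : x / (2 ^ 10 * K ^ 2) ≤ η := by
    rw [hη]
    apply div_le_div_of_nonneg_left hx0.le (by positivity)
    nlinarith
  have hSη : x ^ 2 / (2 ^ 50 * K ^ 9) ≤ S * η := by
    calc x ^ 2 / (2 ^ 50 * K ^ 9) = (x / (2 ^ 40 * K ^ 7)) * (x / (2 ^ 10 * K ^ 2)) := by
          field_simp
      _ ≤ S * η := mul_le_mul hSl hηl (by positivity) hS0.le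
  have hWl : W ≤ x / (2 ^ 29 * K ^ 5) := by
    rw [le_div_iff₀ (by positivity)]; exact hW
  have hW2 : W ^ 2 ≤ x ^ 2 / (2 ^ 58 * K ^ 10) := by
    calc W ^ 2 ≤ (x / (2 ^ 29 * K ^ 5)) ^ 2 := pow_le_pow_left₀ hW0 hWl 2
      _ = x ^ 2 / (2 ^ 58 * K ^ 10) := by field_simp
  have hNl : N ≤ x ^ 4 / (2 ^ 57 * K ^ 10) := by
    rw [le_div_iff₀ (by positivity)]; exact hN
  have hd : 3 * (2 * x ^ 2 * W ^ 2 + 2 * N) / (S * η) ≤ 2 * (x ^ 2 / (16 * K)) := by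
    rw [div_le_iff₀ (by positivity)]
    set Y := x ^ 4 / (2 ^ 58 * K ^ 10) with hY
    have hY0 : 0 ≤ Y := by positivity
    have e1 : x ^ 2 * W ^ 2 ≤ Y := by
      calc x ^ 2 * W ^ 2 ≤ x ^ 2 * (x ^ 2 / (2 ^ 58 * K ^ 10)) :=
            mul_le_mul_of_nonneg_left hW2 (by positivity)
        _ = Y := by rw [hY]; field_simp
    have e2 : N ≤ 2 * Y := by
      calc N ≤ x ^ 4 / (2 ^ 57 * K ^ 10) := hNl
        _ = 2 * Y := by rw [hY]; field_simp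
    have e3 : 32 * Y ≤ 2 * (x ^ 2 / (16 * K)) * (S * η) := by
      calc 32 * Y = 2 * (x ^ 2 / (16 * K)) * (x ^ 2 / (2 ^ 50 * K ^ 9)) := by
            rw [hY]; field_simp; ring
        _ ≤ 2 * (x ^ 2 / (16 * K)) * (S * η) := mul_le_mul_of_nonneg_left hSη (by positivity)
    nlinarith
  have : x * ((x + 1) / (32 * K) + 2 * η) = x * ((x + 1) / (32 * K)) + x * (2 * η) := by ring
  rw [this]
  linarith

theorem params_real (x K S W N : ℝ) (hK : 1 ≤ K) (hx : 1 ≤ x)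
    (hS1 : S * (2 ^ 39 * K ^ 7) ≤ x) (hS2 : x ≤ 2 * S * (2 ^ 39 * K ^ 7))
    (hW0 : 0 ≤ W) (hW : W * (2 ^ 29 * K ^ 5) ≤ x)
    (hN1 : 1 ≤ N) (hNK : N * (2 ^ 172 * K ^ 28) < x ^ 4) :
    0 < x ^ 2 * S ^ 2 / (16 * K * N) ∧
    (x ^ 2 * S ^ 2 / (16 * K * N)) * (N / S ^ 2) = x ^ 2 / (16 * K) ∧
    N * (2 ^ 57 * K ^ 10) ≤ x ^ 4 ∧
    (W ^ 2 * (6 * (x ^ 2 / (16 * K)) / (x ^ 2 * S ^ 2 / (16 * K * N)))) * (2 ^ 57 * K ^ 10) ≤ x ^ 4 ∧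
    (2 * x ^ 2 / K) * ((6 * (x ^ 2 / (16 * K)) / (x ^ 2 * S ^ 2 / (16 * K * N))) / S ^ 2)
      ≤ x ^ 2 / (16 * K) := by
  have hK0 : 0 < K := by linarith
  have hx0 : 0 < x := by linarith
  have hN0 : 0 < N := by linarith
  have hS0 : 0 < S := by
    by_contra h
    push Not at h
    have : 2 * S * (2 ^ 39 * K ^ 7) ≤ 0 := by
      have : 0 ≤ (2 ^ 39 * K ^ 7) := by positivity
      nlinarith
    linarith
  have hZ : 6 * (x ^ 2 / (16 * K)) / (x ^ 2 * S ^ 2 / (16 * K * N)) = 6 * N / S ^ 2 := by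
    field_simp
  have hSl : x / (2 ^ 40 * K ^ 7) ≤ S := by
    rw [div_le_iff₀ (by positivity)]
    calc x ≤ 2 * S * (2 ^ 39 * K ^ 7) := hS2
      _ = S * (2 ^ 40 * K ^ 7) := by ring
  have hS2l : x ^ 2 / (2 ^ 80 * K ^ 14) ≤ S ^ 2 := by
    calc x ^ 2 / (2 ^ 80 * K ^ 14) = (x / (2 ^ 40 * K ^ 7)) ^ 2 := by field_simp
      _ ≤ S ^ 2 := pow_le_pow_left₀ (by positivity) hSl 2
  have hS4l : x ^ 4 / (2 ^ 160 * K ^ 28) ≤ S ^ 4 := by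
    calc x ^ 4 / (2 ^ 160 * K ^ 28) = (x / (2 ^ 40 * K ^ 7)) ^ 4 := by field_simp
      _ ≤ S ^ 4 := pow_le_pow_left₀ (by positivity) hSl 4
  have hWl : W ≤ x / (2 ^ 29 * K ^ 5) := by
    rw [le_div_iff₀ (by positivity)]; exact hW
  have hW2 : W ^ 2 ≤ x ^ 2 / (2 ^ 58 * K ^ 10) := by
    calc W ^ 2 ≤ (x / (2 ^ 29 * K ^ 5)) ^ 2 := pow_le_pow_left₀ hW0 hWl 2
      _ = x ^ 2 / (2 ^ 58 * K ^ 10) := by field_simp
  have hK10 : K ^ 10 ≤ K ^ 28 := pow_le_pow_right₀ hK (by norm_num)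
  have hK14 : K ^ 14 ≤ K ^ 28 := pow_le_pow_right₀ hK (by norm_num)
  have hK28 : 0 < K ^ 28 := by positivity
  refine ⟨by positivity, by field_simp, ?_, ?_, ?_⟩
  · have : N * (2 ^ 57 * K ^ 10) ≤ N * (2 ^ 172 * K ^ 28) := by
      apply mul_le_mul_of_nonneg_left _ hN0.le
      calc (2:ℝ) ^ 57 * K ^ 10 ≤ 2 ^ 57 * K ^ 28 := by gcongr
        _ ≤ 2 ^ 172 * K ^ 28 := by gcongr <;> norm_num
    linarith
  · rw [hZ]
    -- W^2 * (6N/S^2) ≤ 6 * 2^22 K^4 N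
    have h1 : 6 * N / S ^ 2 ≤ 6 * N * (2 ^ 80 * K ^ 14) / x ^ 2 := by
      rw [div_le_div_iff₀ (by positivity) (by positivity)]
      have : x ^ 2 ≤ S ^ 2 * (2 ^ 80 * K ^ 14) := by
        rwa [div_le_iff₀ (by positivity)] at hS2l
      calc 6 * N * x ^ 2 ≤ 6 * N * (S ^ 2 * (2 ^ 80 * K ^ 14)) := by gcongr
        _ = 6 * N * (2 ^ 80 * K ^ 14) * S ^ 2 := by ring
    have h2 : W ^ 2 * (6 * N / S ^ 2) ≤ (x ^ 2 / (2 ^ 58 * K ^ 10)) * (6 * N * (2 ^ 80 * K ^ 14) / x ^ 2) :=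
      mul_le_mul hW2 h1 (by positivity) (by positivity)
    have h3 : (x ^ 2 / (2 ^ 58 * K ^ 10)) * (6 * N * (2 ^ 80 * K ^ 14) / x ^ 2) * (2 ^ 57 * K ^ 10)
        = N * (3 * 2 ^ 80 * K ^ 14) := by
      field_simp; ring
    have h4 : N * (3 * 2 ^ 80 * K ^ 14) ≤ N * (2 ^ 172 * K ^ 28) := by
      apply mul_le_mul_of_nonneg_left _ hN0.le
      calc (3:ℝ) * 2 ^ 80 * K ^ 14 ≤ 3 * 2 ^ 80 * K ^ 28 := by gcongr
        _ ≤ 2 ^ 172 * K ^ 28 := by gcongr; norm_num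
    have h5 := mul_le_mul_of_nonneg_right h2 (by positivity : (0:ℝ) ≤ 2 ^ 57 * K ^ 10)
    linarith
  · rw [hZ]
    have h1 : 192 * N ≤ S ^ 4 := by
      have : 4096 * N ≤ x ^ 4 / (2 ^ 160 * K ^ 28) := by
        rw [le_div_iff₀ (by positivity)]
        calc 4096 * N * (2 ^ 160 * K ^ 28) = N * (2 ^ 172 * K ^ 28) := by ring
          _ ≤ x ^ 4 := hNK.le
      linarith
    have h2 : (2 * x ^ 2 / K) * ((6 * N / S ^ 2) / S ^ 2) = (x ^ 2 / (16 * K)) * (192 * N / S ^ 4) := by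
      field_simp; ring
    rw [h2]
    have h3 : 192 * N / S ^ 4 ≤ 1 := by
      rw [div_le_one (by positivity)]; exact h1
    calc (x ^ 2 / (16 * K)) * (192 * N / S ^ 4) ≤ (x ^ 2 / (16 * K)) * 1 := by gcongr
      _ = x ^ 2 / (16 * K) := by ring

/-- numerical instantiation of `two_step` -/
theorem core_aux (hn : 0 < n) (k : ℕ) (hk1 : 1 ≤ k) (A : Fin n → Fin n → Bool)
    (hN1 : (1 : ℝ) ≤ (cntI A : ℝ))
    (hNK : (cntI A : ℝ) * (2 ^ 172 * (k : ℝ) ^ 28) < (n : ℝ) ^ 4) :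
    ∃ B : Fin n → Fin n → Bool, IFree B ∧ (hd A B : ℝ) ≤ (3 / 4) * ((n : ℝ) ^ 2 / k) := by
  have hx0 : (0 : ℝ) < n := by exact_mod_cast hn
  have hK : (1 : ℝ) ≤ k := by exact_mod_cast hk1
  have hK0 : (0 : ℝ) < k := by linarith
  have hxbig : 2 ^ 43 * (k : ℝ) ^ 7 < n := by
    by_contra hcon
    push Not at hcon
    have h4 : (n : ℝ) ^ 4 ≤ (2 ^ 43 * (k : ℝ) ^ 7) ^ 4 := pow_le_pow_left₀ hx0.le hcon 4
    have e : ((2:ℝ) ^ 43 * (k : ℝ) ^ 7) ^ 4 = 2 ^ 172 * (k : ℝ) ^ 28 := by ring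
    have : 1 * (2 ^ 172 * (k : ℝ) ^ 28) ≤ (cntI A : ℝ) * (2 ^ 172 * (k : ℝ) ^ 28) :=
      mul_le_mul_of_nonneg_right hN1 (by positivity)
    linarith
  have hK7 : 1 ≤ (k : ℝ) ^ 7 := one_le_pow₀ hK
  have hK5 : (k : ℝ) ^ 5 ≤ (k : ℝ) ^ 7 := pow_le_pow_right₀ hK (by norm_num)
  have hx1 : (1 : ℝ) ≤ n := by nlinarith
  -- natural parameters
  obtain ⟨q, hq⟩ : ∃ q : ℕ, q = 2 ^ 30 * k ^ 5 := ⟨_, rfl⟩
  obtain ⟨L, hL⟩ : ∃ L : ℕ, L = 32 * k := ⟨_, rfl⟩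
  obtain ⟨D, hD⟩ : ∃ D : ℕ, D = 2 ^ 39 * k ^ 7 := ⟨_, rfl⟩
  obtain ⟨s, hs⟩ : ∃ s : ℕ, s = n / D := ⟨_, rfl⟩
  have hq0 : 0 < q := by rw [hq]; positivity
  have hL0 : 0 < L := by rw [hL]; positivity
  have hD0 : 0 < D := by rw [hD]; positivity
  have hqR : (q : ℝ) = 2 ^ 30 * (k : ℝ) ^ 5 := by rw [hq]; push_cast; ring
  have hLR : (L : ℝ) = 32 * (k : ℝ) := by rw [hL]; push_cast; ring
  have hDR : (D : ℝ) = 2 ^ 39 * (k : ℝ) ^ 7 := by rw [hD]; push_cast; ring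
  have hDn : D ≤ n := by
    have : (D : ℝ) ≤ n := by rw [hDR]; nlinarith
    exact_mod_cast this
  have hqn : q ≤ n := by
    have : (q : ℝ) ≤ n := by rw [hqR]; nlinarith
    exact_mod_cast this
  have hs1 : 1 ≤ s := by rw [hs]; exact Nat.div_pos hDn hD0
  have hS1 : (s : ℝ) * (2 ^ 39 * (k : ℝ) ^ 7) ≤ n := by
    rw [← hDR]
    have : s * D ≤ n := by rw [hs]; exact Nat.div_mul_le_self n D
    exact_mod_cast this
  have hS2 : (n : ℝ) ≤ 2 * (s : ℝ) * (2 ^ 39 * (k : ℝ) ^ 7) := by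
    rw [← hDR]
    have h1 : n < D * (s + 1) := by rw [hs]; exact Nat.lt_mul_div_succ n hD0
    have h2 : n ≤ 2 * s * D := by nlinarith
    exact_mod_cast h2
  have hW0 : (0 : ℝ) ≤ ((n / q + 1 : ℕ) : ℝ) := Nat.cast_nonneg _
  have hW : ((n / q + 1 : ℕ) : ℝ) * (2 ^ 29 * (k : ℝ) ^ 5) ≤ n := by
    have h1 : (n / q + 1) * q ≤ 2 * n := by
      have : n / q * q ≤ n := Nat.div_mul_le_self n q
      nlinarith
    have h2 : ((n / q + 1 : ℕ) : ℝ) * (q : ℝ) ≤ 2 * (n : ℝ) := by exact_mod_cast h1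
    rw [hqR] at h2
    nlinarith
  obtain ⟨p1, p2, p3, p4, p5⟩ := params_real (n : ℝ) (k : ℝ) (s : ℝ) ((n / q + 1 : ℕ) : ℝ)
    (cntI A : ℝ) hK hx1 hS1 hS2 hW0 hW hN1 hNK
  have hT0 : 0 < (n : ℝ) ^ 2 / (16 * (k : ℝ)) := by positivity
  have hη0 : 0 < (n : ℝ) / (16 * (k : ℝ) * (32 * (k : ℝ) + 2)) := by positivity
  have hErr : ∀ M : ℝ, M * (2 ^ 57 * (k : ℝ) ^ 10) ≤ (n : ℝ) ^ 4 →
      Err n q L (n / q + 1) s ((n : ℝ) / (16 * (k : ℝ) * (32 * (k : ℝ) + 2))) M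
        ≤ 5 * ((n : ℝ) ^ 2 / (16 * (k : ℝ))) := by
    intro M hM
    have := err_real (n : ℝ) (k : ℝ) (s : ℝ) ((n / q + 1 : ℕ) : ℝ) M _ hK hx1 hS1 hS2 hW0 hW rfl hM
    unfold Err
    rw [hqR, hLR]
    exact this
  obtain ⟨B, hB, hdB⟩ := two_step hn A q L s hq0 hL0 hs1
    ((n : ℝ) / (16 * (k : ℝ) * (32 * (k : ℝ) + 2)))
    ((n : ℝ) ^ 2 * (s : ℝ) ^ 2 / (16 * (k : ℝ) * (cntI A : ℝ))) (2 * (n : ℝ) ^ 2 / (k : ℝ)) hη0 p1
    (by positivity) (6 * ((n : ℝ) ^ 2 / (16 * (k : ℝ)))) (by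
      have := hErr _ p3
      linarith) (6 * ((n : ℝ) ^ 2 / (16 * (k : ℝ)))) (by
      have := hErr _ p4
      linarith) (by
      have : 2 * (n : ℝ) ^ 2 / (k : ℝ) = 32 * ((n : ℝ) ^ 2 / (16 * (k : ℝ))) := by
        field_simp; ring
      rw [this]; linarith)
  refine ⟨B, hB, hdB.trans (le_of_eq ?_)⟩
  field_simp; ring

/-- CORE THEOREM: few copies of `I` ⇒ close to `I`-free. -/
theorem core (hn : 0 < n) (A : Fin n → Fin n → Bool) (ε : ℝ) (hε : 0 < ε) (hε1 : ε < 1)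
    (hN : (cntI A : ℝ) < (1 / 2 ^ 200) * ε ^ 28 * (n : ℝ) ^ 4) :
    ∃ B : Fin n → Fin n → Bool, IFree B ∧ (hd A B : ℝ) < ε * (n : ℝ) ^ 2 := by
  have hx0 : (0 : ℝ) < n := by exact_mod_cast hn
  by_cases h0 : cntI A = 0
  · refine ⟨A, (cntI_eq_zero_iff A).mp h0, ?_⟩
    have : hd A A = 0 := by simp [hd]
    rw [this]
    simp only [Nat.cast_zero]
    positivity
  have hN1 : (1 : ℝ) ≤ cntI A := by exact_mod_cast Nat.one_le_iff_ne_zero.mpr h0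
  obtain ⟨k, hk⟩ : ∃ k : ℕ, k = ⌈1 / ε⌉₊ := ⟨_, rfl⟩
  have hK1 : 1 / ε ≤ (k : ℝ) := by rw [hk]; exact Nat.le_ceil _
  have hK2 : (k : ℝ) < 1 / ε + 1 := by rw [hk]; exact Nat.ceil_lt_add_one (by positivity)
  have hinv : 1 < 1 / ε := by rw [lt_div_iff₀ hε]; linarith
  have hK : (1 : ℝ) ≤ k := by linarith
  have hK0 : (0 : ℝ) < k := by linarith
  have hk1 : 1 ≤ k := by exact_mod_cast hK
  have hεK : ε * (k : ℝ) < 2 := by
    have : ε * (k : ℝ) < ε * (1 / ε + 1) := mul_lt_mul_of_pos_left hK2 hε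
    have e : ε * (1 / ε + 1) = 1 + ε := by field_simp
    linarith
  have hεK' : 1 ≤ ε * (k : ℝ) := by
    have := mul_le_mul_of_nonneg_left hK1 hε.le
    have e : ε * (1 / ε) = 1 := by field_simp
    linarith
  have hNK : (cntI A : ℝ) * (2 ^ 172 * (k : ℝ) ^ 28) < (n : ℝ) ^ 4 := by
    have h28 : (ε * (k : ℝ)) ^ 28 ≤ 2 ^ 28 := pow_le_pow_left₀ (by positivity) hεK.le 28
    have hx4 : 0 < (n : ℝ) ^ 4 := by positivity
    calc (cntI A : ℝ) * (2 ^ 172 * (k : ℝ) ^ 28)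
          < ((1 / 2 ^ 200) * ε ^ 28 * (n : ℝ) ^ 4) * (2 ^ 172 * (k : ℝ) ^ 28) :=
          mul_lt_mul_of_pos_right hN (by positivity)
      _ = ((ε * (k : ℝ)) ^ 28 / 2 ^ 28) * (n : ℝ) ^ 4 := by rw [mul_pow]; ring
      _ ≤ 1 * (n : ℝ) ^ 4 := by
          apply mul_le_mul_of_nonneg_right _ hx4.le
          rw [div_le_one (by positivity)]; exact h28
      _ = (n : ℝ) ^ 4 := one_mul _
  obtain ⟨B, hB, hdB⟩ := core_aux hn k hk1 A hN1 hNK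
  refine ⟨B, hB, lt_of_le_of_lt hdB ?_⟩
  have e2 : (n : ℝ) ^ 2 / (k : ℝ) ≤ ε * (n : ℝ) ^ 2 := by
    rw [div_le_iff₀ hK0]
    have hx2 : 0 ≤ (n : ℝ) ^ 2 := by positivity
    nlinarith
  have e3 : 0 < (n : ℝ) ^ 2 / (k : ℝ) := by positivity
  linarith

end Vale.Agent.Lib.P037
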