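import Vale.Agent.Lib.P037.Statement
import Vale.Agent.Lib.P037.Core

namespace Vale.Agent.Lib.P037
open Finset
variable {n : ℕ}

theorem strictMono_two (r : Fin 2 → Fin n) : StrictMono r ↔ r 0 < r 1 := by
  constructor
  · intro h
    exact h (by decide)
  · intro h i j hij
    fin_cases i <;> fin_cases j
    · exact absurd hij (by decide)
    · exact h
    · exact absurd hij (by decide)
    · exact absurd hij (by decide)

theorem isCopy_patI_iff (A : Matrix (Fin n) (Fin n) Bool) (r c : Fin 2 → Fin n) :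
    IsCopy patI A r c ↔ (r 0 < r 1 ∧ c 0 < c 1 ∧ A (r 0) (c 0) = true ∧ A (r 0) (c 1) = false ∧
      A (r 1) (c 0) = false ∧ A (r 1) (c 1) = true) := by
  unfold IsCopy
  rw [strictMono_two, strictMono_two]
  simp only [Fin.forall_fin_two, patI]
  simp
  tauto

theorem numCopies_patI (A : Matrix (Fin n) (Fin n) Bool) :
    numCopies patI A = cntI (fun i j => A i j) := by
  classical
  unfold numCopies cntI
  rw [Nat.card_eq_fintype_card, Fintype.card_subtype]
  apply Finset.card_equiv ((finTwoArrowEquiv (Fin n)).prodCongr (finTwoArrowEquiv (Fin n)))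
  intro p
  simp only [Finset.mem_filter, Finset.mem_univ, true_and, isCopy_patI_iff]
  rfl

theorem isFree_patI_iff (A : Matrix (Fin n) (Fin n) Bool) :
    IsFree patI A ↔ IFree (fun i j => A i j) := by
  unfold IsFree IFree
  constructor
  · intro h x y c d hxy hcd hh
    apply h ![x, y] ![c, d]
    rw [isCopy_patI_iff]
    exact ⟨hxy, hcd, hh⟩
  · intro h r c hc
    rw [isCopy_patI_iff] at hc
    exact h (r 0) (r 1) (c 0) (c 1) hc.1 hc.2.1 hc.2.2

theorem numDiff_eq_hd (A B : Matrix (Fin n) (Fin n) Bool) :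
    numDiff A B = hd (fun i j => A i j) (fun i j => B i j) := by
  rfl

theorem isCopy_patJ_iff (A : Matrix (Fin n) (Fin n) Bool) (r c : Fin 2 → Fin n) :
    IsCopy patJ A r c ↔ IsCopy patI (A.map not) r c := by
  unfold IsCopy
  simp only [Fin.forall_fin_two, patI, patJ, Matrix.map_apply]
  simp

/-- complementing all entries exchanges `I` and `J` -/
theorem numCopies_patJ (A : Matrix (Fin n) (Fin n) Bool) :
    numCopies patJ A = numCopies patI (A.map not) := by
  unfold numCopies
  exact Nat.card_congr (Equiv.subtypeEquivRight (fun p => isCopy_patJ_iff A p.1 p.2))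

theorem isFree_patJ_iff (A : Matrix (Fin n) (Fin n) Bool) :
    IsFree patJ A ↔ IsFree patI (A.map not) := by
  unfold IsFree
  simp only [isCopy_patJ_iff]

theorem numDiff_map_not (A B : Matrix (Fin n) (Fin n) Bool) :
    numDiff (A.map not) (B.map not) = numDiff A B := by
  unfold numDiff
  apply congrArg Finset.card
  apply Finset.filter_congr
  intro p _
  simp only [Matrix.map_apply]
  exact not_congr Bool.not_inj_iff

theorem map_not_not (A : Matrix (Fin n) (Fin n) Bool) : (A.map not).map not = A := by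
  ext i j
  simp

theorem distFree_patJ (A : Matrix (Fin n) (Fin n) Bool) :
    distFree patJ A = distFree patI (A.map not) := by
  unfold distFree
  have e : {d : ℕ | ∃ B : Matrix (Fin n) (Fin n) Bool, IsFree patJ B ∧ numDiff A B = d}
      = {d : ℕ | ∃ B : Matrix (Fin n) (Fin n) Bool, IsFree patI B ∧ numDiff (A.map not) B = d} := by
    ext d
    constructor
    · rintro ⟨B, h1, h2⟩
      exact ⟨B.map not, (isFree_patJ_iff B).1 h1, by rw [numDiff_map_not, h2]⟩
    · rintro ⟨B, h1, h2⟩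
      refine ⟨B.map not, (isFree_patJ_iff _).2 (by rw [map_not_not]; exact h1), ?_⟩
      rw [← numDiff_map_not, map_not_not, h2]
  rw [e]

theorem explicit_patI (n : ℕ) (hn : 1 ≤ n) (ε : ℝ) (hε : 0 < ε) (hε1 : ε < 1)
    (A : Matrix (Fin n) (Fin n) Bool) (hA : ε ≤ distFree patI A) :
    (1 / 2 ^ 200) * ε ^ 28 * (n : ℝ) ^ 4 ≤ numCopies patI A := by
  by_contra hcon
  push Not at hcon
  have hn0 : 0 < n := hn
  have hnR : (0 : ℝ) < n := by exact_mod_cast hn0
  rw [numCopies_patI] at hcon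
  obtain ⟨B, hB1, hB2⟩ := core hn0 (fun i j => A i j) ε hε hε1 hcon
  have hmem : numDiff A (Matrix.of B) ∈
      {d : ℕ | ∃ B : Matrix (Fin n) (Fin n) Bool, IsFree patI B ∧ numDiff A B = d} :=
    ⟨Matrix.of B, (isFree_patI_iff _).2 hB1, rfl⟩
  have hle : sInf {d : ℕ | ∃ B : Matrix (Fin n) (Fin n) Bool, IsFree patI B ∧ numDiff A B = d}
      ≤ numDiff A (Matrix.of B) := Nat.sInf_le hmem
  have hd' : (numDiff A (Matrix.of B) : ℝ) < ε * (n : ℝ) ^ 2 := by
    rw [numDiff_eq_hd]
    exact hB2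
  have : distFree patI A < ε := by
    unfold distFree
    rw [div_lt_iff₀ (by positivity)]
    calc ((sInf {d : ℕ | ∃ B : Matrix (Fin n) (Fin n) Bool, IsFree patI B ∧ numDiff A B = d} : ℕ) : ℝ)
        ≤ (numDiff A (Matrix.of B) : ℝ) := by exact_mod_cast hle
      _ < ε * (n : ℝ) ^ 2 := hd'
  linarith

theorem explicit_patJ (n : ℕ) (hn : 1 ≤ n) (ε : ℝ) (hε : 0 < ε) (hε1 : ε < 1)
    (A : Matrix (Fin n) (Fin n) Bool) (hA : ε ≤ distFree patJ A) :
    (1 / 2 ^ 200) * ε ^ 28 * (n : ℝ) ^ 4 ≤ numCopies patJ A := by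
  rw [numCopies_patJ]
  apply explicit_patI n hn ε hε hε1 (A.map not)
  rw [← distFree_patJ]
  exact hA

theorem polyRemoval_patI : PolyRemoval patI := by
  refine ⟨1 / 2 ^ 200, 28, by positivity, by norm_num, ?_⟩
  intro n hn ε hε hε1 A hA
  have e28 : ε ^ (28 : ℝ) = ε ^ (28 : ℕ) := by
    rw [← Real.rpow_natCast]
    norm_num
  rw [e28]
  exact explicit_patI n hn ε hε hε1 A hA

theorem polyRemoval_patJ : PolyRemoval patJ := by
  obtain ⟨c, C, hc, hC, h⟩ := polyRemoval_patI
  refine ⟨c, C, hc, hC, ?_⟩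
  intro n hn ε hε hε1 A hA
  rw [numCopies_patJ]
  apply h n hn ε hε hε1 (A.map not)
  rw [← distFree_patJ]
  exact hA

end Vale.Agent.Lib.P037
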