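import Vale.Agent.Lib.P037.Defs

namespace Vale.Agent.Lib.P037
open Finset
variable {n m : ℕ}

theorem strip_ineq_aux (w : ℕ) (α β : ℕ → ℕ) (hα : ∀ a, α a ≤ w) (hβ : ∀ a, β a ≤ w) (q : ℕ) :
    ∑ a ∈ range q, α a * β a ≤ w * min (∑ a ∈ range q, α a) (2 * w)
      + ∑ a ∈ range q, (∑ a' ∈ range a, α a') * β a := by
  induction q with
  | zero => simp
  | succ q ih =>
    rw [sum_range_succ, sum_range_succ (fun a => (∑ a' ∈ range a, α a') * β a),
      sum_range_succ (fun a => α a)]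
    set P := ∑ a ∈ range q, α a with hP
    set T := ∑ a ∈ range q, (∑ a' ∈ range a, α a') * β a with hT
    set S := ∑ a ∈ range q, α a * β a with hS
    have h1 := hα q
    have h2 := hβ q
    rcases le_or_gt w P with hw | hw
    · have h3 : α q * β q ≤ P * β q := Nat.mul_le_mul_right _ (h1.trans hw)
      have h4 : w * min P (2 * w) ≤ w * min (P + α q) (2 * w) :=
        Nat.mul_le_mul_left _ (min_le_min_right _ (Nat.le_add_right _ _))
      omega
    · have h5 : min P (2 * w) = P := min_eq_left (by omega)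
      rw [h5] at ih
      rcases le_or_gt P (α q) with hc | hc
      · obtain ⟨e, he⟩ := Nat.exists_eq_add_of_le hc
        have h6 : α q * β q = P * β q + e * β q := by rw [he]; ring
        have h7 : e * β q ≤ e * w := Nat.mul_le_mul_left _ h2
        have h8 : w * α q ≤ w * min (P + α q) (2 * w) :=
          Nat.mul_le_mul_left _ (le_min (Nat.le_add_left _ _) (by omega))
        have h9 : w * α q = w * P + e * w := by rw [he]; ring
        omega
      · have h6 : α q * β q ≤ P * β q := Nat.mul_le_mul_right _ hc.le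
        have h8 : w * P ≤ w * min (P + α q) (2 * w) :=
          Nat.mul_le_mul_left _ (le_min (Nat.le_add_right _ _) (by omega))
        omega

theorem strip_ineq (w : ℕ) (α β : ℕ → ℕ) (hα : ∀ a, α a ≤ w) (hβ : ∀ a, β a ≤ w) (q : ℕ) :
    ∑ a ∈ range q, α a * β a ≤ 2 * w ^ 2
      + ∑ a ∈ range q, (∑ a' ∈ range a, α a') * β a := by
  have h := strip_ineq_aux w α β hα hβ q
  have h2 : w * min (∑ a ∈ range q, α a) (2 * w) ≤ w * (2 * w) :=
    Nat.mul_le_mul_left _ (min_le_right _ _)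
  have h3 : w * (2 * w) = 2 * w ^ 2 := by ring
  omega

/-- Key combinatorial lemma (one pair of columns).  `Z` = rows of state `10`, `Z'` = rows of
state `01`.  Pairs in the same strip are bounded by `2w²` plus the pairs `x<y`. -/
theorem pair_strip_bound {q : ℕ} (σ : Fin n → Fin q) (w : ℕ) (hσ : Monotone σ)
    (hw : ∀ a, #{i | σ i = a} ≤ w) (Z Z' : Finset (Fin n)) :
    #{p ∈ Z ×ˢ Z' | σ p.1 = σ p.2} ≤ 2 * w ^ 2 + #{p ∈ Z ×ˢ Z' | p.1 < p.2} := by
  classical
  set α : ℕ → ℕ := fun a => #{x ∈ Z | (σ x : ℕ) = a} with hα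
  set β : ℕ → ℕ := fun a => #{y ∈ Z' | (σ y : ℕ) = a} with hβ
  have hfib : ∀ (S : Finset (Fin n)) (a : ℕ), #{x ∈ S | (σ x : ℕ) = a} ≤ w := by
    intro S a
    by_cases ha : a < q
    · refine le_trans (card_le_card ?_) (hw ⟨a, ha⟩)
      intro x hx
      simp only [mem_filter, mem_univ, true_and] at hx ⊢
      exact Fin.ext hx.2
    · have : ({x ∈ S | (σ x : ℕ) = a} : Finset (Fin n)) = ∅ := by
        apply filter_eq_empty_iff.mpr
        intro x _ hx
        exact ha (hx ▸ (σ x).2)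
      rw [this]; simp
  have e1 : #{p ∈ Z ×ˢ Z' | σ p.1 = σ p.2} = ∑ a ∈ range q, α a * β a := by
    rw [card_eq_sum_card_fiberwise (f := fun p => (σ p.2 : ℕ)) (t := range q)
      (fun p _ => by simp)]
    refine sum_congr rfl fun a _ => ?_
    rw [hα, hβ, ← card_product]
    congr 1
    ext p
    simp only [mem_filter, mem_product]
    constructor
    · rintro ⟨⟨⟨h1, h2⟩, h3⟩, h4⟩
      exact ⟨⟨h1, by rw [h3]; exact h4⟩, h2, h4⟩
    · rintro ⟨⟨h1, h3⟩, h2, h4⟩
      exact ⟨⟨⟨h1, h2⟩, Fin.ext (h3.trans h4.symm)⟩, h4⟩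
  have e2 : ∀ a, #{x ∈ Z | (σ x : ℕ) < a} = ∑ a' ∈ range a, α a' := by
    intro a
    rw [card_eq_sum_card_fiberwise (f := fun x => (σ x : ℕ)) (t := range a)
      (fun x hx => by
        have := (mem_filter.mp (mem_coe.mp hx)).2
        simpa using this)]
    refine sum_congr rfl fun a' ha' => ?_
    rw [hα]
    congr 1
    ext x
    simp only [mem_filter, mem_range] at ha' ⊢
    constructor
    · rintro ⟨⟨h1, _⟩, h3⟩; exact ⟨h1, h3⟩
    · rintro ⟨h1, h3⟩; exact ⟨⟨h1, by omega⟩, h3⟩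
  have e3 : #{p ∈ Z ×ˢ Z' | σ p.1 < σ p.2}
      = ∑ a ∈ range q, (∑ a' ∈ range a, α a') * β a := by
    rw [card_eq_sum_card_fiberwise (f := fun p => (σ p.2 : ℕ)) (t := range q)
      (fun p _ => by simp)]
    refine sum_congr rfl fun a _ => ?_
    rw [← e2, hβ, ← card_product]
    congr 1
    ext p
    simp only [mem_filter, mem_product]
    constructor
    · rintro ⟨⟨⟨h1, h2⟩, h3⟩, h4⟩
      exact ⟨⟨h1, by rw [← h4]; exact h3⟩, h2, h4⟩
    · rintro ⟨⟨h1, h3⟩, h2, h4⟩
      exact ⟨⟨⟨h1, h2⟩, by rw [Fin.lt_def, h4]; exact h3⟩, h4⟩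
  have e4 : #{p ∈ Z ×ˢ Z' | σ p.1 < σ p.2} ≤ #{p ∈ Z ×ˢ Z' | p.1 < p.2} := by
    apply card_le_card
    intro p hp
    simp only [mem_filter] at hp ⊢
    refine ⟨hp.1, ?_⟩
    by_contra hcon
    exact absurd (hσ (not_lt.mp hcon)) (not_le.mpr hp.2)
  have := strip_ineq w α β (fun a => hfib Z a) (fun a => hfib Z' a) q
  omega

/-- ENERGY BOUND. -/
theorem energy_bound {q : ℕ} (A : Fin n → Fin m → Bool) (σ : Fin n → Fin q) (w : ℕ)
    (hσ : Monotone σ) (hw : ∀ a, #{i | σ i = a} ≤ w) :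
    energy A σ ≤ 2 * m ^ 2 * w ^ 2 + 2 * cntI A := by
  classical
  let r : (Fin n × Fin n) → (Fin m × Fin m) → Prop := fun xy cd =>
    (A xy.1 cd.1 = true ∧ A xy.2 cd.1 = false) ∧ (A xy.2 cd.2 = true ∧ A xy.1 cd.2 = false)
  let s : Finset (Fin n × Fin n) := univ.filter fun xy => σ xy.1 = σ xy.2
  let K1 : Fin m × Fin m → ℕ := fun cd =>
    #{xy : Fin n × Fin n | xy.1 < xy.2 ∧ cd.1 < cd.2 ∧ A xy.1 cd.1 = true ∧
      A xy.1 cd.2 = false ∧ A xy.2 cd.1 = false ∧ A xy.2 cd.2 = true}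
  have hE : energy A σ = ∑ xy ∈ s, #{cd : Fin m × Fin m | r xy cd} := by
    unfold energy
    rw [sum_filter, Fintype.sum_prod_type]
    refine sum_congr rfl fun x _ => sum_congr rfl fun y _ => ?_
    split_ifs
    · unfold dif
      rw [← card_product]
      congr 1
      ext cd
      simp [r]
    · rfl
  have hswap : ∑ xy ∈ s, #{cd : Fin m × Fin m | r xy cd}
      = ∑ cd : Fin m × Fin m, #{xy ∈ s | r xy cd} :=
    sum_card_bipartiteAbove_eq_sum_card_bipartiteBelow r
  have hK : cntI A = ∑ cd, K1 cd := by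
    unfold cntI
    rw [card_filter, Fintype.sum_prod_type_right]
    refine sum_congr rfl fun cd _ => ?_
    simp only [K1]
    rw [card_filter]
  have hK' : ∑ cd : Fin m × Fin m, K1 cd.swap = ∑ cd, K1 cd :=
    Equiv.sum_comp (Equiv.prodComm (Fin m) (Fin m)) K1
  have hper : ∀ cd : Fin m × Fin m, #{xy ∈ s | r xy cd} ≤ 2 * w ^ 2 + K1 cd + K1 cd.swap := by
    rintro ⟨c, d⟩
    set Z : Finset (Fin n) := {x | A x c = true ∧ A x d = false} with hZ
    set Z' : Finset (Fin n) := {y | A y c = false ∧ A y d = true} with hZ'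
    rcases lt_trichotomy c d with hcd | hcd | hcd
    · have h1 := pair_strip_bound σ w hσ hw Z Z'
      have e1 : ({xy ∈ s | r xy (c, d)} : Finset _) = {p ∈ Z ×ˢ Z' | σ p.1 = σ p.2} := by
        ext p
        simp only [s, r, hZ, hZ', mem_filter, mem_univ, true_and, mem_product]
        tauto
      have e2 : #{p ∈ Z ×ˢ Z' | p.1 < p.2} = K1 (c, d) := by
        simp only [K1]
        congr 1
        ext p
        simp only [hZ, hZ', mem_filter, mem_univ, true_and, mem_product]
        tauto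
      rw [e1]
      omega
    · subst hcd
      have : ({xy ∈ s | r xy (c, c)} : Finset _) = ∅ := by
        apply filter_eq_empty_iff.mpr
        rintro p _ ⟨⟨h1, _⟩, _, h4⟩
        simp only at h1 h4
        rw [h1] at h4
        exact absurd h4 (by simp)
      rw [this]
      simp
    · have h1 := pair_strip_bound σ w hσ hw Z' Z
      have e1 : #{xy ∈ s | r xy (c, d)} = #{p ∈ Z' ×ˢ Z | σ p.1 = σ p.2} := by
        refine card_bij (fun p _ => p.swap) ?_ ?_ ?_
        · intro p hp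
          simp only [s, r, hZ, hZ', mem_filter, mem_univ, true_and, mem_product,
            Prod.fst_swap, Prod.snd_swap] at hp ⊢
          obtain ⟨h0, ⟨h1, h2⟩, h3, h4⟩ := hp
          exact ⟨⟨⟨h2, h3⟩, h1, h4⟩, h0.symm⟩
        · intro p _ p' _ h
          exact Prod.swap_injective h
        · intro p hp
          refine ⟨p.swap, ?_, by simp⟩
          simp only [s, r, hZ, hZ', mem_filter, mem_univ, true_and, mem_product,
            Prod.fst_swap, Prod.snd_swap] at hp ⊢
          obtain ⟨⟨⟨h2, h3⟩, h1, h4⟩, h0⟩ := hp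
          exact ⟨h0.symm, ⟨h1, h2⟩, h3, h4⟩
      have e2 : #{p ∈ Z' ×ˢ Z | p.1 < p.2} = K1 (c, d).swap := by
        simp only [K1, Prod.swap_prod_mk]
        congr 1
        ext p
        simp only [hZ, hZ', mem_filter, mem_univ, true_and, mem_product]
        tauto
      rw [e1]
      omega
  calc energy A σ = ∑ cd : Fin m × Fin m, #{xy ∈ s | r xy cd} := by rw [hE, hswap]
    _ ≤ ∑ cd : Fin m × Fin m, (2 * w ^ 2 + K1 cd + K1 cd.swap) :=
        sum_le_sum fun cd _ => hper cd
    _ = 2 * m ^ 2 * w ^ 2 + 2 * cntI A := by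
        rw [sum_add_distrib, sum_add_distrib, hK', ← hK]
        simp only [sum_const, card_univ, Fintype.card_prod, Fintype.card_fin, smul_eq_mul]
        ring

end Vale.Agent.Lib.P037
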