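import Vale.Agent.Lib.P037.Types

namespace Vale.Agent.Lib.P037
open Finset
variable {n m q L : ℕ}

/-- POINTWISE BOUND.  For a row `i` of an active type `t = ty i` with representative `ρ = ω t`:
the rounded row is `R_ρ ∪ ⋃_{t1 active, same strip, lower level} R_{ω t1}`, hence
`|R_i Δ R¹_i| ≤ |R_i Δ R_ρ| + ∑_{t1} |R_{ω t1} \ R_ρ|`.  Rows of inactive types cost at most `m`. -/
theorem hd_round_le (A : Fin n → Fin m → Bool) (σ : Fin n → Fin q) (lev : Fin n → Fin L) (s : ℕ)
    (ω : Fin q × Fin L → Fin n) (hω : ω ∈ Fintype.piFinset (SS σ lev s)) :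
    (hd A (roundRows A σ lev (Reps σ lev s ω)) : ℝ) ≤
      (m : ℝ) * #{i : Fin n | ¬ s ≤ #(mem σ lev (ty σ lev i))}
        + cost1 A σ lev s ω + cost2 A σ lev s ω := by
  classical
  set B := roundRows A σ lev (Reps σ lev s ω) with hB
  have h1 : hd A B = ∑ i, #{c : Fin m | A i c ≠ B i c} := by
    unfold hd
    rw [card_filter, Fintype.sum_prod_type]
    refine sum_congr rfl fun i _ => ?_
    rw [card_filter]
  have hrow : ∀ i, (#{c : Fin m | A i c ≠ B i c} : ℝ) ≤
      (if ¬ s ≤ #(mem σ lev (ty σ lev i)) then (m : ℝ) else 0)
      + (if s ≤ #(mem σ lev (ty σ lev i)) then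
          ((dif A i (ω (ty σ lev i)) : ℝ) + dif A (ω (ty σ lev i)) i) else 0)
      + (if s ≤ #(mem σ lev (ty σ lev i)) then
          ∑ t1 : Fin q × Fin L, (if s ≤ #(mem σ lev t1) ∧ t1.1 = σ i ∧ t1.2 < lev i then
            (dif A (ω t1) (ω (ty σ lev i)) : ℝ) else 0) else 0) := by
    intro i
    by_cases hact : s ≤ #(mem σ lev (ty σ lev i))
    · simp only [hact, not_true_eq_false, if_true, if_false, zero_add]
      set t := ty σ lev i with ht
      set ρ := ω t with hρ
      obtain ⟨hρσ, hρl⟩ := omega_mem σ lev s ω hω t hact
      have hρσ' : σ ρ = σ i := hρσ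
      have hρl' : lev ρ = lev i := hρl
      have hρmem : ρ ∈ Reps σ lev s ω := by
        unfold Reps
        exact mem_image.mpr ⟨t, by simp [hact], rfl⟩
      set T : Finset (Fin q × Fin L) :=
        univ.filter (fun t1 => s ≤ #(mem σ lev t1) ∧ t1.1 = σ i ∧ t1.2 < lev i) with hT
      have hsub : ({c : Fin m | A i c ≠ B i c} : Finset (Fin m)) ⊆
          ((univ.filter fun c => A i c = true ∧ A ρ c = false) ∪
            (univ.filter fun c => A ρ c = true ∧ A i c = false)) ∪
            T.biUnion (fun t1 => univ.filter fun c => A (ω t1) c = true ∧ A ρ c = false) := by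
        intro c hc
        have hc' : A i c ≠ B i c := (mem_filter.mp hc).2
        simp only [mem_union, mem_filter, mem_univ, true_and, mem_biUnion]
        by_cases hBc : B i c = true
        · -- then A i c = false
          have hAi : A i c = false := by
            cases h : A i c
            · rfl
            · exact absurd (h.trans hBc.symm) hc'
          have hex : ∃ x ∈ Reps σ lev s ω, σ x = σ i ∧ lev x ≤ lev i ∧ A x c = true := by
            have : decide (∃ x ∈ Reps σ lev s ω, σ x = σ i ∧ lev x ≤ lev i ∧ A x c = true)
                = true := hBc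
            exact of_decide_eq_true this
          obtain ⟨x, hx, hxσ, hxl, hxc⟩ := hex
          by_cases hρc : A ρ c = true
          · exact Or.inl (Or.inr ⟨hρc, hAi⟩)
          · have hρc' : A ρ c = false := by simpa using hρc
            right
            unfold Reps at hx
            obtain ⟨t1, ht1, rfl⟩ := mem_image.mp hx
            have ht1a : s ≤ #(mem σ lev t1) := (mem_filter.mp ht1).2
            obtain ⟨h1σ, h1l⟩ := omega_mem σ lev s ω hω t1 ht1a
            refine ⟨t1, ?_, hxc, hρc'⟩
            rw [hT, mem_filter]
            refine ⟨mem_univ _, ht1a, h1σ ▸ hxσ, ?_⟩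
            have hle : t1.2 ≤ lev i := h1l ▸ hxl
            rcases lt_or_eq_of_le hle with h | h
            · exact h
            · exfalso
              have : t1 = t := by
                apply Prod.ext
                · exact (h1σ ▸ hxσ : t1.1 = σ i)
                · exact h
              rw [this] at hxc
              rw [hxc] at hρc'
              exact absurd hρc' (by simp)
        · have hBc' : B i c = false := by simpa using hBc
          have hAi : A i c = true := by
            cases h : A i c
            · exact absurd (h.trans hBc'.symm) hc'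
            · rfl
          left; left
          refine ⟨hAi, ?_⟩
          by_contra hcon
          have hρc : A ρ c = true := by simpa using hcon
          have : decide (∃ x ∈ Reps σ lev s ω, σ x = σ i ∧ lev x ≤ lev i ∧ A x c = true)
                = false := hBc'
          exact (of_decide_eq_false this) ⟨ρ, hρmem, hρσ', hρl'.le, hρc⟩
      have hcard : #{c : Fin m | A i c ≠ B i c} ≤
          dif A i ρ + dif A ρ i + ∑ t1 ∈ T, dif A (ω t1) ρ := by
        refine (card_le_card hsub).trans ?_
        refine (card_union_le _ _).trans ?_
        refine add_le_add (card_union_le _ _) ?_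
        exact card_biUnion_le
      have hcast : (#{c : Fin m | A i c ≠ B i c} : ℝ) ≤
          (dif A i ρ : ℝ) + dif A ρ i + ∑ t1 ∈ T, (dif A (ω t1) ρ : ℝ) := by
        exact_mod_cast hcard
      rw [hT, sum_filter] at hcast
      exact hcast
    · simp only [hact, not_false_eq_true, if_true, if_false, add_zero]
      have : #{c : Fin m | A i c ≠ B i c} ≤ m := (card_le_univ _).trans (by simp)
      exact_mod_cast this
  have hm : (m : ℝ) * #{i : Fin n | ¬ s ≤ #(mem σ lev (ty σ lev i))}
      = ∑ i : Fin n, (if ¬ s ≤ #(mem σ lev (ty σ lev i)) then (m : ℝ) else 0) := by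
    rw [card_filter]
    push_cast
    rw [mul_sum]
    refine sum_congr rfl fun i _ => ?_
    split_ifs <;> simp
  rw [h1, hm]
  unfold cost1 cost2
  rw [← sum_add_distrib, ← sum_add_distrib]
  push_cast
  exact sum_le_sum fun i _ => hrow i

/-- rows of inactive types are few -/
theorem inactive_le (σ : Fin n → Fin q) (lev : Fin n → Fin L) (s : ℕ) :
    #{i : Fin n | ¬ s ≤ #(mem σ lev (ty σ lev i))} ≤ q * L * s := by
  classical
  rw [card_eq_sum_card_fiberwise (f := ty σ lev) (t := univ) (fun _ _ => by simp)]
  calc ∑ t : Fin q × Fin L, #{i ∈ ({i : Fin n | ¬ s ≤ #(mem σ lev (ty σ lev i))} : Finset _) |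
          ty σ lev i = t} ≤ ∑ _t : Fin q × Fin L, s := by
        refine sum_le_sum fun t _ => ?_
        by_cases ht : s ≤ #(mem σ lev t)
        · have : ({i ∈ ({i : Fin n | ¬ s ≤ #(mem σ lev (ty σ lev i))} : Finset _) |
              ty σ lev i = t} : Finset _) = ∅ := by
            apply filter_eq_empty_iff.mpr
            intro i hi hit
            have := (mem_filter.mp hi).2
            rw [hit] at this
            exact this ht
          rw [this]; simp
        · refine le_trans (card_le_card ?_) (not_le.mp ht).le
          intro i hi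
          unfold mem
          simp only [mem_filter, mem_univ, true_and] at hi ⊢
          exact hi.2
    _ = q * L * s := by simp
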