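import Vale.Agent.Lib.P037.Energy
import Vale.Agent.Lib.P037.Pointwise
import Vale.Agent.Lib.P037.Avg1
import Vale.Agent.Lib.P037.Avg2
import Vale.Agent.Lib.P037.Avg3

namespace Vale.Agent.Lib.P037
open Finset
variable {n m q L : ℕ}

/-- ROW LEMMA. -/
theorem row_lemma (hn : 0 < n) (A : Fin n → Fin m → Bool) (σ : Fin n → Fin q) (lev : Fin n → Fin L)
    (w s : ℕ) (μ η lam : ℝ) (hσ : Monotone σ) (hw : ∀ a, #{i | σ i = a} ≤ w)
    (hlev1 : ∀ x y, lev x < lev y → rs A x ≤ rs A y)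
    (hlev2 : ∀ x y, lev x = lev y → |(rs A x : ℝ) - rs A y| ≤ μ)
    (hs : 1 ≤ s) (hμ : 0 ≤ μ) (hη : 0 < η) (hlam : 0 ≤ lam)
    (κ : Fin n → Fin n → ℝ) (hκ : ∀ x y, 0 ≤ κ x y) :
    ∃ Rep : Finset (Fin n),
      (hd A (roundRows A σ lev Rep) : ℝ) + lam * cost3 σ κ Rep
        ≤ ((m : ℝ) * (q * L * s) + n * (μ + 2 * η) + L * n * η
            + 3 * (2 * (m : ℝ) ^ 2 * w ^ 2 + 2 * cntI A) / (s * η))
          + lam * ((∑ x, ∑ y, κ x y) / (s : ℝ) ^ 2) := by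
  classical
  set Ω := Fintype.piFinset (SS σ lev s) with hΩ
  have hS := SS_nonempty hn σ lev s hs
  have h1 := avg_cost1 hn A σ lev s hs μ η hμ hη hlev2
  have h2 := avg_cost2 hn A σ lev s hs η hη hlev1
  have h3 := avg_cost3 hn σ lev s hs κ hκ
  rw [← hΩ] at h1 h2 h3
  have hE := energy_bound A σ w hσ hw
  have hin := inactive_le σ lev s
  have hsη : 0 < (s : ℝ) * η := by
    have : (0 : ℝ) < s := by exact_mod_cast hs
    positivity
  have hER : (energy A σ : ℝ) ≤ 2 * (m : ℝ) ^ 2 * w ^ 2 + 2 * cntI A := by exact_mod_cast hE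
  have hinR : ((#{i : Fin n | ¬ s ≤ #(mem σ lev (ty σ lev i))} : ℕ) : ℝ) ≤ (q : ℝ) * L * s := by
    exact_mod_cast hin
  obtain ⟨ω, hω, hle⟩ := exists_le_avg (SS σ lev s) hS
    (fun ω => (hd A (roundRows A σ lev (Reps σ lev s ω)) : ℝ) + lam * cost3 σ κ (Reps σ lev s ω))
    (((m : ℝ) * (q * L * s) + n * (μ + 2 * η) + L * n * η
            + 3 * (2 * (m : ℝ) ^ 2 * w ^ 2 + 2 * cntI A) / (s * η))
          + lam * ((∑ x, ∑ y, κ x y) / (s : ℝ) ^ 2)) (by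
      have hstep : ∑ ω ∈ Ω, ((hd A (roundRows A σ lev (Reps σ lev s ω)) : ℝ)
            + lam * cost3 σ κ (Reps σ lev s ω))
          ≤ ∑ ω ∈ Ω, (((m : ℝ) * (q * L * s) + cost1 A σ lev s ω + cost2 A σ lev s ω)
            + lam * cost3 σ κ (Reps σ lev s ω)) := by
        apply Finset.sum_le_sum
        intro ω hω
        have hp := hd_round_le A σ lev s ω hω
        have hm : (0 : ℝ) ≤ m := Nat.cast_nonneg _
        have : (m : ℝ) * ((#{i : Fin n | ¬ s ≤ #(mem σ lev (ty σ lev i))} : ℕ) : ℝ)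
            ≤ (m : ℝ) * (q * L * s) := mul_le_mul_of_nonneg_left hinR hm
        linarith
      refine hstep.trans ?_
      rw [Finset.sum_add_distrib, Finset.sum_add_distrib, Finset.sum_add_distrib,
        Finset.sum_const, nsmul_eq_mul, ← Finset.mul_sum, ← hΩ]
      have hc : (0 : ℝ) ≤ (#Ω : ℝ) := Nat.cast_nonneg _
      have h3' : lam * ∑ ω ∈ Ω, cost3 σ κ (Reps σ lev s ω)
          ≤ lam * (((∑ x, ∑ y, κ x y) / (s : ℝ) ^ 2) * #Ω) := mul_le_mul_of_nonneg_left h3 hlam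
      have hEdiv : 2 * (energy A σ : ℝ) / (s * η) + (energy A σ : ℝ) / (s * η)
          ≤ 3 * (2 * (m : ℝ) ^ 2 * w ^ 2 + 2 * cntI A) / (s * η) := by
        rw [← add_div]
        apply div_le_div_of_nonneg_right _ hsη.le
        linarith
      have hEmul := mul_le_mul_of_nonneg_right hEdiv hc
      linarith [h1, h2, h3', hEmul])
  exact ⟨Reps σ lev s ω, hle⟩

end Vale.Agent.Lib.P037
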