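import Mathlib

/-!
# P037: official notions (general `k × k` pattern `H`, `n × n` host `A`)
-/

namespace Vale.Agent.Lib.P037

/-- `(r,c)` is an ordered copy of `H` in `A`: `r_1<⋯<r_k`, `c_1<⋯<c_k`, `A(r_i,c_j)=H(i,j)`. -/
def IsCopy {k n : ℕ} (H : Matrix (Fin k) (Fin k) Bool) (A : Matrix (Fin n) (Fin n) Bool)
    (r c : Fin k → Fin n) : Prop :=
  StrictMono r ∧ StrictMono c ∧ ∀ i j, A (r i) (c j) = H i j

/-- `N_H(A)`: the number of ordered copies. -/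
noncomputable def numCopies {k n : ℕ} (H : Matrix (Fin k) (Fin k) Bool)
    (A : Matrix (Fin n) (Fin n) Bool) : ℕ :=
  Nat.card {p : (Fin k → Fin n) × (Fin k → Fin n) // IsCopy H A p.1 p.2}

/-- `A` is `H`-free. -/
def IsFree {k n : ℕ} (H : Matrix (Fin k) (Fin k) Bool) (A : Matrix (Fin n) (Fin n) Bool) : Prop :=
  ∀ r c : Fin k → Fin n, ¬ IsCopy H A r c

/-- number of entries in which `A` and `B` differ. -/
def numDiff {n : ℕ} (A B : Matrix (Fin n) (Fin n) Bool) : ℕ :=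
  (Finset.univ.filter fun p : Fin n × Fin n => A p.1 p.2 ≠ B p.1 p.2).card

/-- `dist_H(A) = n⁻² min_B |{A ≠ B}|`, minimum over the `H`-free `B`. -/
noncomputable def distFree {k n : ℕ} (H : Matrix (Fin k) (Fin k) Bool)
    (A : Matrix (Fin n) (Fin n) Bool) : ℝ :=
  (sInf {d : ℕ | ∃ B : Matrix (Fin n) (Fin n) Bool, IsFree H B ∧ numDiff A B = d} : ℕ) / (n : ℝ) ^ 2

/-- the polynomial removal property of Q1 for the pattern `H`. -/
def PolyRemoval {k : ℕ} (H : Matrix (Fin k) (Fin k) Bool) : Prop :=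
  ∃ c C : ℝ, 0 < c ∧ 0 < C ∧ ∀ n : ℕ, 1 ≤ n → ∀ ε : ℝ, 0 < ε → ε < 1 →
    ∀ A : Matrix (Fin n) (Fin n) Bool, ε ≤ distFree H A →
      c * ε ^ C * (n : ℝ) ^ (2 * k) ≤ numCopies H A

/-- `I = [[1,0],[0,1]]` -/
def patI : Matrix (Fin 2) (Fin 2) Bool := !![true, false; false, true]

/-- `J = [[0,1],[1,0]]` -/
def patJ : Matrix (Fin 2) (Fin 2) Bool := !![false, true; true, false]

end Vale.Agent.Lib.P037
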