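import Vale.Agent.Lib.P037.Defs

namespace Vale.Agent.Lib.P037
open Finset
variable {n m q L : ℕ}

/-- type of a row = (strip, level) -/
def ty (σ : Fin n → Fin q) (lev : Fin n → Fin L) (i : Fin n) : Fin q × Fin L := (σ i, lev i)

/-- members of a type -/
def mem (σ : Fin n → Fin q) (lev : Fin n → Fin L) (t : Fin q × Fin L) : Finset (Fin n) :=
  {x | ty σ lev x = t}

/-- the set from which the representative of type `t` is drawn
(`mem t` if the type is active, i.e. has at least `s` members; irrelevant otherwise). -/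
def SS (σ : Fin n → Fin q) (lev : Fin n → Fin L) (s : ℕ) (t : Fin q × Fin L) : Finset (Fin n) :=
  if s ≤ #(mem σ lev t) then mem σ lev t else univ

/-- the set of representatives given by a choice function -/
def Reps (σ : Fin n → Fin q) (lev : Fin n → Fin L) (s : ℕ) (ω : Fin q × Fin L → Fin n) :
    Finset (Fin n) :=
  (univ.filter fun t => s ≤ #(mem σ lev t)).image ω

/-- local cost 1 -/
noncomputable def cost1 (A : Fin n → Fin m → Bool) (σ : Fin n → Fin q) (lev : Fin n → Fin L) (s : ℕ)
    (ω : Fin q × Fin L → Fin n) : ℝ :=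
  ∑ i, if s ≤ #(mem σ lev (ty σ lev i)) then
    ((dif A i (ω (ty σ lev i)) : ℝ) + dif A (ω (ty σ lev i)) i) else 0

/-- local cost 2 -/
noncomputable def cost2 (A : Fin n → Fin m → Bool) (σ : Fin n → Fin q) (lev : Fin n → Fin L) (s : ℕ)
    (ω : Fin q × Fin L → Fin n) : ℝ :=
  ∑ i, if s ≤ #(mem σ lev (ty σ lev i)) then
    ∑ t1 : Fin q × Fin L, (if s ≤ #(mem σ lev t1) ∧ t1.1 = σ i ∧ t1.2 < lev i then
      (dif A (ω t1) (ω (ty σ lev i)) : ℝ) else 0) else 0

/-- local cost 3 -/
noncomputable def cost3 (σ : Fin n → Fin q) (κ : Fin n → Fin n → ℝ) (Rep : Finset (Fin n)) : ℝ :=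
  ∑ x ∈ Rep, ∑ y ∈ Rep, if σ x < σ y then κ x y else 0

/-- weight used in step 1: number of `I`-copies on the ordered row pair `x<y` -/
noncomputable def kap1 (A : Fin n → Fin m → Bool) (x y : Fin n) : ℝ :=
  if x < y then (cp A x y : ℝ) else 0

open Classical in
/-- weight used in step 2 (on pairs of columns `z,z'`): indicator that some pair of
representative rows in increasing strips forms an `I`-copy of `A` with the columns `z<z'`. -/
noncomputable def kap2 (A : Fin n → Fin m → Bool) (σ : Fin n → Fin q) (Rep : Finset (Fin n))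
    (z z' : Fin m) : ℝ :=
  if (∃ x ∈ Rep, ∃ y ∈ Rep, σ x < σ y ∧ z < z' ∧
      A x z = true ∧ A x z' = false ∧ A y z = false ∧ A y z' = true) then 1 else 0

theorem SS_nonempty (hn : 0 < n) (σ : Fin n → Fin q) (lev : Fin n → Fin L) (s : ℕ) (hs : 1 ≤ s)
    (t : Fin q × Fin L) : (SS σ lev s t).Nonempty := by
  unfold SS
  split_ifs with h
  · exact Finset.card_pos.mp (by omega)
  · exact ⟨⟨0, hn⟩, Finset.mem_univ _⟩

/-- a choice function picks a member of every active type -/
theorem omega_mem (σ : Fin n → Fin q) (lev : Fin n → Fin L) (s : ℕ)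
    (ω : Fin q × Fin L → Fin n) (hω : ω ∈ Fintype.piFinset (SS σ lev s))
    (t : Fin q × Fin L) (ht : s ≤ #(mem σ lev t)) : σ (ω t) = t.1 ∧ lev (ω t) = t.2 := by
  have h := Fintype.mem_piFinset.mp hω t
  unfold SS at h
  rw [if_pos ht] at h
  have h2 : ty σ lev (ω t) = t := by simpa [mem] using h
  constructor
  · exact congrArg Prod.fst h2
  · exact congrArg Prod.snd h2

theorem rs_sub (A : Fin n → Fin m → Bool) (x y : Fin n) :
    (rs A x : ℤ) - rs A y = (dif A x y : ℤ) - dif A y x := by
  have h1 : ∀ u v : Fin n, rs A u = #{c : Fin m | A u c = true ∧ A v c = true} + dif A u v := by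
    intro u v
    unfold rs dif
    rw [← Finset.card_filter_add_card_filter_not (s := ({c : Fin m | A u c = true} : Finset (Fin m)))
      (fun c => A v c = true), Finset.filter_filter, Finset.filter_filter]
    congr 2
    ext c
    simp
  have h2 : #{c : Fin m | A x c = true ∧ A y c = true} = #{c : Fin m | A y c = true ∧ A x c = true} := by
    congr 1
    ext c
    simp [and_comm]
  rw [h1 x y, h1 y x, h2]
  push_cast
  ring

end Vale.Agent.Lib.P037
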